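import Mathlib

/-!
# Polynomials in several variables: density, growth, division
-/

namespace Vale.Agent.P299.H348

open Filter Topology

section points

/-- Nullstellensatz: a nonzero element of a domain of finite type over `ℂ` is nonzero at some
`ℂ`-point. -/
theorem exists_point {B : Type*} [CommRing B] [IsDomain B] [Algebra ℂ B] [Algebra.FiniteType ℂ B]
    {g : B} (hg : g ≠ 0) : ∃ y : B →ₐ[ℂ] ℂ, y g ≠ 0 := by
  let L := Localization.Away g
  have : IsDomain L := Localization.Away.isDomain hg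
  have : Algebra.FiniteType B L := IsLocalization.finiteType_of_monoid_fg (Submonoid.powers g) L
  have : Algebra.FiniteType ℂ L := Algebra.FiniteType.trans (S := B) inferInstance inferInstance
  obtain ⟨m, hm⟩ := Ideal.exists_maximal L
  let := Ideal.Quotient.field m
  have : Algebra.FiniteType ℂ (L ⧸ m) := Algebra.FiniteType.of_surjective
    (Ideal.Quotient.mkₐ ℂ m) (Ideal.Quotient.mkₐ_surjective ℂ m)
  have hfin : Module.Finite ℂ (L ⧸ m) := finite_of_finite_type_of_isJacobsonRing ℂ (L ⧸ m)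
  have : Algebra.IsIntegral ℂ (L ⧸ m) := Algebra.IsIntegral.of_finite ℂ (L ⧸ m)
  have hbij := IsAlgClosed.algebraMap_bijective_of_isIntegral (k := ℂ) (K := L ⧸ m)
  let E : ℂ ≃ₐ[ℂ] (L ⧸ m) := AlgEquiv.ofBijective (Algebra.ofId ℂ (L ⧸ m)) hbij
  refine ⟨((E.symm : (L ⧸ m) →ₐ[ℂ] ℂ).comp (Ideal.Quotient.mkₐ ℂ m)).comp
    (IsScalarTower.toAlgHom ℂ B L), ?_⟩
  have hu : IsUnit (algebraMap B L g) := IsLocalization.Away.algebraMap_isUnit g
  exact (hu.map (((E.symm : (L ⧸ m) →ₐ[ℂ] ℂ).comp (Ideal.Quotient.mkₐ ℂ m)))).ne_zero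

end points

section poly

variable {ι : Type*} [Fintype ι]

omit [Fintype ι] in
theorem mv_dense (c : MvPolynomial ι ℂ) (hc : c ≠ 0) :
    Dense {z : ι → ℂ | MvPolynomial.eval z c ≠ 0} := by
  classical
  intro a
  rw [mem_closure_iff_frequently]
  obtain ⟨b, hb⟩ : ∃ b, MvPolynomial.eval b c ≠ 0 := by
    by_contra h
    push Not at h
    exact hc (MvPolynomial.funext (fun x => by rw [h x, map_zero]))
  let q : Polynomial ℂ := MvPolynomial.aeval
    (fun i => Polynomial.C (a i) + Polynomial.X * Polynomial.C (b i - a i)) c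
  have hq : ∀ t, q.eval t = MvPolynomial.eval (fun i => a i + t * (b i - a i)) c := by
    intro t
    have h1 : (Polynomial.evalRingHom t).comp
        (MvPolynomial.aeval (R := ℂ)
          (fun i => Polynomial.C (a i) + Polynomial.X * Polynomial.C (b i - a i))).toRingHom =
        MvPolynomial.eval (fun i => a i + t * (b i - a i)) := by
      apply MvPolynomial.ringHom_ext
      · intro r; simp
      · intro i; simp
    exact congrArg (fun φ : MvPolynomial ι ℂ →+* ℂ => φ c) h1
  have hq0 : q ≠ 0 := by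
    intro h
    apply hb
    have := hq 1
    rw [h, Polynomial.eval_zero] at this
    rw [this]
    congr 2
    ext i
    ring
  have hfr : ∃ᶠ t in 𝓝 (0 : ℂ), q.eval t ≠ 0 := by
    have h1 : ∀ᶠ t in 𝓝[≠] (0 : ℂ), q.eval t ≠ 0 := by
      have hfin : {t : ℂ | q.eval t = 0}.Finite := by
        refine (q.roots.toFinset.finite_toSet).subset fun t ht => ?_
        simp only [Finset.mem_coe, Multiset.mem_toFinset, Polynomial.mem_roots hq0]
        exact ht
      have h2 := (hfin.subset (Set.sdiff_subset (t := {0}))).isClosed.isOpen_compl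
      have h3 : ({t : ℂ | q.eval t = 0} \ {0})ᶜ ∈ 𝓝 (0 : ℂ) := h2.mem_nhds (by simp)
      filter_upwards [nhdsWithin_le_nhds h3, self_mem_nhdsWithin] with t ht ht0 h
      exact ht ⟨h, ht0⟩
    exact (h1.frequently).filter_mono nhdsWithin_le_nhds
  have hcont : Tendsto (fun t : ℂ => (fun i => a i + t * (b i - a i))) (𝓝 0) (𝓝 a) := by
    have : Continuous (fun t : ℂ => (fun i => a i + t * (b i - a i))) := by fun_prop
    convert! this.tendsto 0 using 2
    ext i; simp
  exact hcont.frequently (hfr.mono fun t ht => by rw [hq] at ht; exact ht)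

omit [Fintype ι] in
/-- extend an inequality between continuous functions from the nonvanishing set of a polynomial -/
theorem le_of_dense {c : MvPolynomial ι ℂ} (hc : c ≠ 0) {f g : (ι → ℂ) → ℝ} (hf : Continuous f)
    (hg : Continuous g) (h : ∀ z, MvPolynomial.eval z c ≠ 0 → f z ≤ g z) (z : ι → ℂ) :
    f z ≤ g z := by
  have hcl : IsClosed {z | f z ≤ g z} := isClosed_le hf hg
  have := (mv_dense c hc).closure_eq
  have hsub : closure {z : ι → ℂ | MvPolynomial.eval z c ≠ 0} ⊆ {z | f z ≤ g z} :=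
    closure_minimal (fun z hz => h z hz) hcl
  rw [this] at hsub
  exact hsub (Set.mem_univ z)

theorem natDegree_le_of_growth {f : Polynomial ℂ} {i : ℕ} {C : ℝ}
    (h : ∀ s : ℂ, ‖f.eval s‖ ≤ C * (1 + ‖s‖) ^ i) : f.natDegree ≤ i := by
  by_contra hcon
  push Not at hcon
  set m := f.natDegree with hm
  have hf0 : f ≠ 0 := by
    rintro rfl
    simp at hm
    omega
  have hlc : 0 < ‖f.leadingCoeff‖ := norm_pos_iff.2 (Polynomial.leadingCoeff_ne_zero.2 hf0)
  -- the remaining part
  let A : ℝ := ∑ k ∈ Finset.range m, ‖f.coeff k‖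
  have hA : 0 ≤ A := Finset.sum_nonneg fun _ _ => norm_nonneg _
  have hC : 0 ≤ C := by
    have := h 0
    simp only [norm_zero, add_zero, one_pow, mul_one] at this
    exact (norm_nonneg _).trans this
  have key : ∀ R : ℝ, 1 ≤ R → ‖f.leadingCoeff‖ * R ^ m ≤ (C + A) * (1 + R) ^ (m - 1) := by
    intro R hR
    have hR0 : 0 ≤ R := by linarith
    have h1 := h (R : ℂ)
    rw [Polynomial.eval_eq_sum_range, Finset.sum_range_succ, ← hm] at h1
    have hRn : ‖(R : ℂ)‖ = R := by simp [abs_of_nonneg hR0]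
    rw [hRn] at h1
    have h2 : ‖∑ k ∈ Finset.range m, f.coeff k * (R : ℂ) ^ k‖ ≤ A * (1 + R) ^ (m - 1) := by
      refine (norm_sum_le _ _).trans ?_
      rw [Finset.sum_mul]
      refine Finset.sum_le_sum fun k hk => ?_
      rw [norm_mul, norm_pow, hRn]
      refine mul_le_mul_of_nonneg_left ?_ (norm_nonneg _)
      have hk' : k ≤ m - 1 := by have := Finset.mem_range.1 hk; omega
      exact (pow_le_pow_left₀ hR0 (by linarith) k).trans (pow_le_pow_right₀ (by linarith) hk')
    have h3 : ‖f.coeff m * (R : ℂ) ^ m‖ = ‖f.leadingCoeff‖ * R ^ m := by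
      rw [norm_mul, norm_pow, hRn]; rfl
    have h4 : C * (1 + R) ^ i ≤ C * (1 + R) ^ (m - 1) :=
      mul_le_mul_of_nonneg_left (pow_le_pow_right₀ (by linarith) (by omega)) hC
    have h5 : ‖f.coeff m * (R : ℂ) ^ m‖ ≤
        ‖∑ k ∈ Finset.range m, f.coeff k * (R : ℂ) ^ k + f.coeff m * (R : ℂ) ^ m‖ +
        ‖∑ k ∈ Finset.range m, f.coeff k * (R : ℂ) ^ k‖ := by
      have := norm_sub_le (∑ k ∈ Finset.range m, f.coeff k * (R : ℂ) ^ k + f.coeff m * (R : ℂ) ^ m)
        (∑ k ∈ Finset.range m, f.coeff k * (R : ℂ) ^ k)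
      simpa using this
    rw [h3] at h5
    nlinarith
  -- contradiction for large `R`
  let R : ℝ := (C + A) * 2 ^ (m - 1) / ‖f.leadingCoeff‖ + 1
  have hR1 : 1 ≤ R := by
    have : 0 ≤ (C + A) * 2 ^ (m - 1) / ‖f.leadingCoeff‖ := by positivity
    simp only [R]; linarith
  have h1 := key R hR1
  have h2 : (1 + R) ^ (m - 1) ≤ 2 ^ (m - 1) * R ^ (m - 1) := by
    rw [← mul_pow]
    exact pow_le_pow_left₀ (by linarith) (by linarith) _
  have h3 : R ^ m = R * R ^ (m - 1) := by
    rw [← pow_succ']; congr 1; omega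
  have hRp : 0 < R ^ (m - 1) := by positivity
  have h4 : ‖f.leadingCoeff‖ * R * R ^ (m - 1) ≤ (C + A) * 2 ^ (m - 1) * R ^ (m - 1) := by
    have : (C + A) * (1 + R) ^ (m - 1) ≤ (C + A) * (2 ^ (m - 1) * R ^ (m - 1)) :=
      mul_le_mul_of_nonneg_left h2 (by linarith)
    rw [h3] at h1
    nlinarith
  have h5 : ‖f.leadingCoeff‖ * R ≤ (C + A) * 2 ^ (m - 1) := le_of_mul_le_mul_right h4 hRp
  have h6 : ‖f.leadingCoeff‖ * R = (C + A) * 2 ^ (m - 1) + ‖f.leadingCoeff‖ := by
    simp only [R]
    field_simp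
  linarith

/-- a polynomial of growth `≤ i` has total degree `≤ i` -/
theorem totalDegree_le_of_growth {c : MvPolynomial ι ℂ} {i : ℕ} {C : ℝ}
    (h : ∀ z : ι → ℂ, ‖MvPolynomial.eval z c‖ ≤ C * (1 + ‖z‖) ^ i) : c.totalDegree ≤ i := by
  classical
  by_contra hcon
  push Not at hcon
  set m := c.totalDegree with hm
  have hc0 : c ≠ 0 := by
    rintro rfl
    simp at hm
    omega
  have htop : MvPolynomial.homogeneousComponent m c ≠ 0 := by
    obtain ⟨d, hd, hdm⟩ := Finset.exists_mem_eq_sup c.support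
      (MvPolynomial.support_nonempty.2 hc0) (fun s => s.sum fun _ e => e)
    have hdeg : d.degree = m := by
      rw [hm, MvPolynomial.totalDegree, hdm]
      rfl
    intro h
    have h1 := congrArg (MvPolynomial.coeff d) h
    rw [MvPolynomial.coeff_homogeneousComponent, if_pos hdeg, MvPolynomial.coeff_zero] at h1
    exact (MvPolynomial.mem_support_iff.1 hd) h1
  obtain ⟨τ, hτ⟩ : ∃ τ, MvPolynomial.eval τ (MvPolynomial.homogeneousComponent m c) ≠ 0 := by
    by_contra h
    push Not at h
    exact htop (MvPolynomial.funext (fun x => by rw [h x, map_zero]))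
  let f : Polynomial ℂ := ∑ d ∈ c.support,
    Polynomial.C (MvPolynomial.coeff d c * ∏ i, τ i ^ d i) * Polynomial.X ^ d.degree
  have hf : ∀ s, f.eval s = MvPolynomial.eval (fun i => s * τ i) c := by
    intro s
    rw [MvPolynomial.eval_eq']
    simp only [f, Polynomial.eval_finsetSum, Polynomial.eval_mul, Polynomial.eval_C,
      Polynomial.eval_pow, Polynomial.eval_X]
    refine Finset.sum_congr rfl fun d _ => ?_
    have : ∏ i, (s * τ i) ^ d i = s ^ d.degree * ∏ i, τ i ^ d i := by
      simp_rw [mul_pow]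
      rw [Finset.prod_mul_distrib, Finset.prod_pow_eq_pow_sum, Finsupp.degree_eq_sum]
    rw [this]
    ring
  have hC : 0 ≤ C := by
    have := h 0
    simp only [norm_zero, add_zero, one_pow, mul_one] at this
    exact (norm_nonneg _).trans this
  have hdegf : f.natDegree ≤ i := by
    refine natDegree_le_of_growth (C := C * (1 + ‖τ‖) ^ i) fun s => ?_
    rw [hf]
    refine (h _).trans ?_
    rw [mul_assoc, ← mul_pow]
    refine mul_le_mul_of_nonneg_left (pow_le_pow_left₀ (by positivity) ?_ i) hC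
    have h1 : ‖(fun i => s * τ i)‖ ≤ ‖s‖ * ‖τ‖ := by
      have : (fun i => s * τ i) = s • τ := rfl
      rw [this]
      exact (norm_smul_le s τ)
    nlinarith [norm_nonneg s, norm_nonneg τ]
  have hcoeff : f.coeff m = MvPolynomial.eval τ (MvPolynomial.homogeneousComponent m c) := by
    rw [MvPolynomial.homogeneousComponent_apply, map_sum, Finset.sum_filter]
    simp only [f, Polynomial.finsetSum_coeff, Polynomial.coeff_C_mul, Polynomial.coeff_X_pow,
      MvPolynomial.eval_monomial, Finsupp.prod_fintype _ _ (fun i => pow_zero (τ i))]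
    refine Finset.sum_congr rfl fun d _ => ?_
    by_cases hd : d.degree = m
    · simp [hd]
    · rw [if_neg hd, if_neg (fun h => hd h.symm), mul_zero]
  rw [← hcoeff, Polynomial.coeff_eq_zero_of_natDegree_lt (lt_of_le_of_lt hdegf hcon)] at hτ
  exact hτ rfl

/-- If `|p| ≤ C (1+|z|)^i |q|` then `q` divides `p` with a quotient of degree `≤ i`. -/
theorem exists_quotient {p q : MvPolynomial ι ℂ} (hq : q ≠ 0) {i : ℕ} {C : ℝ}
    (h : ∀ z : ι → ℂ, MvPolynomial.eval z q ≠ 0 →
      ‖MvPolynomial.eval z p‖ ≤ C * (1 + ‖z‖) ^ i * ‖MvPolynomial.eval z q‖) :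
    ∃ c : MvPolynomial ι ℂ, p = q * c ∧ c.totalDegree ≤ i := by
  classical
  obtain ⟨q', p', e, hrel, hq', hp'⟩ := UniqueFactorizationMonoid.exists_reduced_factors q hq p
  have he : e ≠ 0 := by rintro rfl; rw [zero_mul] at hq'; exact hq hq'.symm
  have hq'0 : q' ≠ 0 := by rintro rfl; rw [mul_zero] at hq'; exact hq hq'.symm
  have hcont : ∀ f : MvPolynomial ι ℂ, Continuous fun z : ι → ℂ => ‖MvPolynomial.eval z f‖ :=
    fun f => (MvPolynomial.continuous_eval f).norm
  have hbd : ∀ z : ι → ℂ, ‖MvPolynomial.eval z p'‖ ≤ C * (1 + ‖z‖) ^ i * ‖MvPolynomial.eval z q'‖ := by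
    refine le_of_dense (c := e * q') (mul_ne_zero he hq'0) (hcont p')
      ((continuous_const.mul ((continuous_const.add continuous_norm).pow i)).mul (hcont q'))
      fun z hz => ?_
    have h1 := h z (by rw [← hq']; exact hz)
    rw [← hq', ← hp', map_mul, map_mul, norm_mul, norm_mul] at h1
    rw [map_mul] at hz
    have he' : 0 < ‖MvPolynomial.eval z e‖ := norm_pos_iff.2 (left_ne_zero_of_mul hz)
    have h2 : ‖MvPolynomial.eval z e‖ * ‖MvPolynomial.eval z p'‖ ≤
        ‖MvPolynomial.eval z e‖ * (C * (1 + ‖z‖) ^ i * ‖MvPolynomial.eval z q'‖) := by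
      calc _ ≤ _ := h1
        _ = _ := by ring
    exact le_of_mul_le_mul_left h2 he'
  have hmem : p' ∈ (Ideal.span {q'}).radical := by
    rw [← MvPolynomial.vanishingIdeal_zeroLocus_eq_radical (K := ℂ)]
    rw [MvPolynomial.mem_vanishingIdeal_iff]
    intro z hz
    rw [MvPolynomial.mem_zeroLocus_iff] at hz
    have h1 := hz q' (Ideal.subset_span rfl)
    have h2 := hbd z
    have h3 : MvPolynomial.eval z q' = 0 := by simpa [MvPolynomial.aeval_def] using h1
    rw [h3, norm_zero, mul_zero, norm_le_zero_iff] at h2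
    simpa [MvPolynomial.aeval_def] using h2
  obtain ⟨k, hk⟩ := hmem
  rw [Ideal.mem_span_singleton] at hk
  have hunit : IsUnit q' := by
    have : IsRelPrime q' (p' ^ k) := hrel.pow_right
    exact this dvd_rfl hk
  obtain ⟨u, hu⟩ := hunit
  let c := p' * (↑u⁻¹ : MvPolynomial ι ℂ)
  have hcq : q' * c = p' := by
    simp only [c]
    rw [mul_comm p', ← mul_assoc, ← hu, Units.mul_inv, one_mul]
  refine ⟨c, ?_, ?_⟩
  · rw [← hq', ← hp', mul_assoc, hcq]
  · refine totalDegree_le_of_growth (C := C) ?_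
    refine le_of_dense (c := q') hq'0 (hcont c)
      (continuous_const.mul ((continuous_const.add continuous_norm).pow i)) fun z hz => ?_
    have h1 := hbd z
    rw [← hcq, map_mul, norm_mul] at h1
    have hq'' : 0 < ‖MvPolynomial.eval z q'‖ := norm_pos_iff.2 hz
    rw [mul_comm] at h1
    exact le_of_mul_le_mul_right h1 hq''

/-- a finite norming set for the polynomials of degree `≤ i` -/
theorem exists_grid (ι : Type*) [Fintype ι] (i : ℕ) {c : ℂ} (hc : c ≠ 0) : ∃ K : ℝ, 0 < K ∧
    ∀ p : MvPolynomial ι ℂ, p.totalDegree ≤ i → ∀ M : ℝ, 0 ≤ M →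
      (∀ g : ι → Fin (i + 1), ‖MvPolynomial.eval (fun j => ((g j : ℕ) : ℂ) * c) p‖ ≤ M) →
      ∀ d, ‖MvPolynomial.coeff d p‖ ≤ K * M := by
  classical
  let s : Finset (ι →₀ ℕ) := (Finsupp.finite_of_degree_le (σ := ι) i).toFinset
  have hs : ∀ d : ι →₀ ℕ, d ∈ s ↔ d.degree ≤ i := fun d => by simp [s]
  let zg : (ι → Fin (i + 1)) → (ι → ℂ) := fun g j => ((g j : ℕ) : ℂ) * c
  let Mx : Matrix (ι → Fin (i + 1)) s ℂ := Matrix.of fun g d => ∏ j, zg g j ^ (d.1 j)
  have hT : ∀ (w : s → ℂ) g, Mx.mulVecLin w g =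
      MvPolynomial.eval (zg g) (∑ d : s, MvPolynomial.monomial d.1 (w d)) := by
    intro w g
    simp only [Matrix.mulVecLin_apply, Matrix.mulVec, dotProduct, map_sum,
      MvPolynomial.eval_monomial, Mx, Matrix.of_apply]
    refine Finset.sum_congr rfl fun d _ => ?_
    rw [Finsupp.prod_fintype _ _ (fun j => pow_zero _), mul_comm]
  have hker : LinearMap.ker Mx.mulVecLin = ⊥ := by
    rw [LinearMap.ker_eq_bot']
    intro w hw
    let P : MvPolynomial ι ℂ := ∑ d : s, MvPolynomial.monomial d.1 (w d)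
    have hPdeg : P.totalDegree ≤ i := by
      refine (MvPolynomial.totalDegree_finsetSum _ _).trans ?_
      refine Finset.sup_le fun d _ => ?_
      refine (MvPolynomial.totalDegree_monomial_le _ _).trans ?_
      exact (hs d.1).1 d.2
    have hP0 : P = 0 := by
      refine MvPolynomial.eq_zero_of_eval_zero_at_prod_finset P
        (fun _ => Finset.univ.image fun k : Fin (i + 1) => ((k : ℕ) : ℂ) * c) ?_ ?_
      · intro j
        rw [Finset.card_image_of_injective]
        · simp only [Finset.card_univ, Fintype.card_fin]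
          exact Nat.lt_succ_of_le ((MvPolynomial.degreeOf_le_totalDegree P j).trans hPdeg)
        · intro a b hab
          simp only at hab
          rw [mul_left_inj' hc] at hab
          exact Fin.ext (by exact_mod_cast hab)
      · intro x hx
        have hx' : ∀ j, ∃ k : Fin (i + 1), ((k : ℕ) : ℂ) * c = x j := by
          intro j
          have := hx j
          simpa using this
        choose g hg using hx'
        have : zg g = x := funext fun j => hg j
        rw [← this, ← hT, hw]
        rfl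
    ext d
    have h1 := congrArg (MvPolynomial.coeff d.1) hP0
    simp only [P, MvPolynomial.coeff_sum, MvPolynomial.coeff_monomial, MvPolynomial.coeff_zero] at h1
    rw [Finset.sum_eq_single d] at h1
    · simpa using h1
    · intro b _ hb
      rw [if_neg (fun h => hb (Subtype.ext h))]
    · intro h; exact absurd (Finset.mem_univ d) h
  obtain ⟨K, hK0, hK⟩ := LinearMap.exists_antilipschitzWith Mx.mulVecLin hker
  refine ⟨K, by exact_mod_cast hK0, fun p hp M hM0 hM d => ?_⟩
  by_cases hd : d ∈ s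
  · let w : s → ℂ := fun d => MvPolynomial.coeff d.1 p
    have hpw : (∑ d : s, MvPolynomial.monomial d.1 (w d)) = p := by
      have h1 : (∑ d : s, MvPolynomial.monomial d.1 (w d)) =
          ∑ d ∈ s, MvPolynomial.monomial d (MvPolynomial.coeff d p) :=
        Finset.sum_coe_sort s (fun d => MvPolynomial.monomial d (MvPolynomial.coeff d p))
      rw [h1]
      conv_rhs => rw [MvPolynomial.as_sum p]
      symm
      refine Finset.sum_subset ?_ ?_
      · intro d hd
        rw [hs]
        exact (MvPolynomial.le_totalDegree hd).trans hp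
      · intro d _ hd
        rw [MvPolynomial.notMem_support_iff.1 hd, map_zero]
    have h2 := hK.le_mul_dist w 0
    rw [map_zero, dist_zero_right, dist_zero_right] at h2
    have h3 : ‖Mx.mulVecLin w‖ ≤ M := by
      rw [pi_norm_le_iff_of_nonneg hM0]
      intro g
      rw [hT, hpw]
      exact hM g
    have h4 : ‖w ⟨d, hd⟩‖ ≤ ‖w‖ := norm_le_pi_norm w _
    calc ‖MvPolynomial.coeff d p‖ = ‖w ⟨d, hd⟩‖ := rfl
      _ ≤ ‖w‖ := h4
      _ ≤ K * ‖Mx.mulVecLin w‖ := h2
      _ ≤ K * M := mul_le_mul_of_nonneg_left h3 K.2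
  · have : MvPolynomial.coeff d p = 0 := by
      by_contra h
      apply hd
      rw [hs]
      exact (MvPolynomial.le_totalDegree (MvPolynomial.mem_support_iff.2 h)).trans hp
    rw [this, norm_zero]
    exact mul_nonneg K.2 hM0

/-- the coefficients of a polynomial of degree `≤ i` are bounded by its sup norm on the unit
polydisc -/
theorem exists_coeff_bound (ι : Type*) [Fintype ι] (i : ℕ) : ∃ K : ℝ, 0 < K ∧
    ∀ p : MvPolynomial ι ℂ, p.totalDegree ≤ i → ∀ M : ℝ,
      (∀ z : ι → ℂ, ‖z‖ ≤ 1 → ‖MvPolynomial.eval z p‖ ≤ M) →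
      ∀ d, ‖MvPolynomial.coeff d p‖ ≤ K * M := by
  have hi : ((i : ℂ) + 1) ≠ 0 := by exact_mod_cast Nat.succ_ne_zero i
  obtain ⟨K, hK, h⟩ := exists_grid ι i (inv_ne_zero hi)
  refine ⟨K, hK, fun p hp M hM d => h p hp M ((norm_nonneg _).trans (hM 0 (by simp))) ?_ d⟩
  intro g
  refine hM _ ?_
  rw [pi_norm_le_iff_of_nonneg zero_le_one]
  intro j
  rw [norm_mul, norm_inv, Complex.norm_natCast]
  have : ‖(i : ℂ) + 1‖ = (i : ℝ) + 1 := by
    have : ((i : ℂ) + 1) = ((i + 1 : ℕ) : ℂ) := by push_cast; ring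
    rw [this, Complex.norm_natCast]; push_cast; ring
  rw [this, ← div_eq_mul_inv, div_le_one (by positivity)]
  have := (g j).2
  have : ((g j : ℕ) : ℝ) ≤ (i : ℝ) + 1 := by exact_mod_cast this.le
  exact this

omit [Fintype ι] in
theorem eval_smul_homogeneousComponent (P : MvPolynomial ι ℂ) (k : ℕ) (s : ℂ) (τ : ι → ℂ) :
    MvPolynomial.eval (s • τ) (MvPolynomial.homogeneousComponent k P) =
      s ^ k * MvPolynomial.eval τ (MvPolynomial.homogeneousComponent k P) := by
  classical
  rw [MvPolynomial.eval_eq, MvPolynomial.eval_eq, Finset.mul_sum]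
  refine Finset.sum_congr rfl fun d hd => ?_
  have hdeg : d.degree = k := by
    by_contra h
    rw [MvPolynomial.mem_support_iff, MvPolynomial.coeff_homogeneousComponent, if_neg h] at hd
    exact hd rfl
  have h1 : ∏ i ∈ d.support, (s • τ) i ^ d i = s ^ k * ∏ i ∈ d.support, τ i ^ d i := by
    simp only [Pi.smul_apply, smul_eq_mul, mul_pow]
    rw [Finset.prod_mul_distrib, Finset.prod_pow_eq_pow_sum, ← hdeg, Finsupp.degree_apply]
  rw [h1]
  ring

omit [Fintype ι] in
theorem eval_homogeneousComponent_eq_zero {P : MvPolynomial ι ℂ} {τ : ι → ℂ}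
    (h : ∀ s : ℂ, s ≠ 0 → MvPolynomial.eval (s • τ) P = 0) (k : ℕ) :
    MvPolynomial.eval τ (MvPolynomial.homogeneousComponent k P) = 0 := by
  classical
  by_cases hk : P.totalDegree < k
  · rw [MvPolynomial.homogeneousComponent_eq_zero _ _ hk, map_zero]
  · let q : Polynomial ℂ := ∑ j ∈ Finset.range (P.totalDegree + 1),
      Polynomial.C (MvPolynomial.eval τ (MvPolynomial.homogeneousComponent j P)) *
        Polynomial.X ^ j
    have hq : ∀ s : ℂ, s ≠ 0 → q.eval s = 0 := by
      intro s hs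
      rw [← h s hs]
      conv_rhs => rw [← MvPolynomial.sum_homogeneousComponent P, map_sum]
      simp only [q, Polynomial.eval_finsetSum, Polynomial.eval_mul, Polynomial.eval_C,
        Polynomial.eval_pow, Polynomial.eval_X]
      refine Finset.sum_congr rfl fun j _ => ?_
      rw [eval_smul_homogeneousComponent, mul_comm]
    have hq0 : q = 0 := by
      refine Polynomial.eq_zero_of_infinite_isRoot q ?_
      have : ({0}ᶜ : Set ℂ).Infinite := (Set.finite_singleton (0 : ℂ)).infinite_compl
      exact this.mono fun s hs => hq s hs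
    have h1 := congrArg (fun p => Polynomial.coeff p k) hq0
    simp only [q, Polynomial.finsetSum_coeff, Polynomial.coeff_C_mul, Polynomial.coeff_X_pow,
      Polynomial.coeff_zero] at h1
    rw [Finset.sum_eq_single k] at h1
    · simpa using h1
    · intro j _ hj
      rw [if_neg (fun h => hj h.symm), mul_zero]
    · intro hk'
      exact absurd (Finset.mem_range.2 (by omega)) hk'

end poly

end Vale.Agent.P299.H348
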