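import Mathlib
import Vale.Agent.P299.H348.Poly

/-!
# One step of the uniform Noether normalisation
-/

namespace Vale.Agent.P299.H348

open Filter Topology

section analytic

variable {ι : Type*} [Fintype ι]

/-- The zero set of a polynomial which is large at `p` stays away from `p`. -/
theorem elim_bound (D : ℕ) (p : ι → ℂ) {δ : ℝ} (hδ : 0 < δ) : ∃ r : ℝ, 0 < r ∧
    ∀ (f : MvPolynomial ι ℂ) (N : ℝ), 0 < N → f.totalDegree ≤ D →
      (∀ d, ‖MvPolynomial.coeff d f‖ ≤ N) → δ * N ≤ ‖MvPolynomial.eval p f‖ →
      ∀ w, MvPolynomial.eval (p + w) f = 0 → r ≤ ‖w‖ := by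
  classical
  let s : Finset (ι →₀ ℕ) := (Finsupp.finite_of_degree_le (σ := ι) D).toFinset
  have hs : ∀ d : ι →₀ ℕ, d ∈ s ↔ d.degree ≤ D := fun d => by simp [s]
  let θ : (ι → ℂ) → ℝ := fun w => ∑ d ∈ s, ‖∏ i, (p i + w i) ^ d i - ∏ i, p i ^ d i‖
  have hθ : Continuous θ := by
    refine continuous_finsetSum _ fun d _ => ?_
    refine Continuous.norm (Continuous.sub ?_ continuous_const)
    exact continuous_finsetProd _ fun i _ => (continuous_const.add (continuous_apply i)).pow _
  have hθ0 : θ 0 = 0 := by simp [θ]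
  have h1 : ∀ᶠ w in 𝓝 (0 : ι → ℂ), θ w < δ := by
    have := hθ.tendsto 0
    rw [hθ0] at this
    exact this.eventually (gt_mem_nhds hδ)
  obtain ⟨r, hr, hball⟩ := Metric.eventually_nhds_iff.1 h1
  refine ⟨r, hr, fun f N hN hf hc hp w hw => ?_⟩
  by_contra hlt
  push Not at hlt
  have h2 : θ w < δ := hball (by rwa [dist_zero_right])
  have hsum : ∀ z : ι → ℂ, MvPolynomial.eval z f =
      ∑ d ∈ s, MvPolynomial.coeff d f * ∏ i, z i ^ d i := by
    intro z
    rw [MvPolynomial.eval_eq']
    refine Finset.sum_subset (fun d hd => ?_) (fun d _ hd => ?_)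
    · rw [hs]; exact (MvPolynomial.le_totalDegree hd).trans hf
    · rw [MvPolynomial.notMem_support_iff.1 hd, zero_mul]
  have h3 : ‖MvPolynomial.eval (p + w) f - MvPolynomial.eval p f‖ ≤ N * θ w := by
    rw [hsum, hsum, ← Finset.sum_sub_distrib, Finset.mul_sum]
    refine (norm_sum_le _ _).trans (Finset.sum_le_sum fun d _ => ?_)
    rw [← mul_sub, norm_mul]
    exact mul_le_mul_of_nonneg_right (hc d) (norm_nonneg _)
  rw [hw, zero_sub, norm_neg] at h3
  nlinarith

end analytic

section algebraic

open Polynomial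

variable {K W : Type*} [Field K] [CommRing W] [Algebra K W] {ι : Type*} [Fintype ι]

omit [Fintype ι] in
theorem prod_lin_coeff (a : ι → W) (p : ι → W) (d : ι → ℕ) (s : Finset ι) :
    (∏ j ∈ s, (C (a j) + X * C (p j)) ^ d j).natDegree ≤ ∑ j ∈ s, d j ∧
    (∏ j ∈ s, (C (a j) + X * C (p j)) ^ d j).coeff (∑ j ∈ s, d j) = ∏ j ∈ s, p j ^ d j := by
  classical
  have hlin : ∀ j, (C (a j) + X * C (p j)).natDegree ≤ 1 := by
    intro j
    refine (natDegree_add_le _ _).trans (max_le (by simp) ?_)
    exact (natDegree_mul_le).trans (by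
      have := natDegree_X_le (R := W)
      simpa using this)
  have hpow : ∀ j, ((C (a j) + X * C (p j)) ^ d j).natDegree ≤ d j := by
    intro j
    refine (natDegree_pow_le).trans ?_
    calc d j * _ ≤ d j * 1 := Nat.mul_le_mul_left _ (hlin j)
      _ = d j := mul_one _
  have hco : ∀ j, ((C (a j) + X * C (p j)) ^ d j).coeff (d j) = p j ^ d j := by
    intro j
    have := coeff_pow_of_natDegree_le (m := d j) (hlin j)
    rw [mul_one] at this
    rw [this]
    congr 1
    have h1 : (X * C (p j)).coeff (0 + 1) = p j := by rw [coeff_X_mul, coeff_C_zero]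
    rw [coeff_add, coeff_C_of_ne_zero one_ne_zero, zero_add]
    exact h1
  induction s using Finset.induction_on with
  | empty => simp
  | insert j s hj ih =>
    rw [Finset.prod_insert hj, Finset.sum_insert hj, Finset.prod_insert hj]
    refine ⟨(natDegree_mul_le).trans (add_le_add (hpow j) ih.1), ?_⟩
    rw [coeff_mul_add_eq_of_natDegree_le (hpow j) ih.1, hco, ih.2]

/-- leading coefficient of a polynomial along a pencil of lines -/
theorem lin_coeff (P : MvPolynomial ι K) (a : ι → W) (p : ι → K) {D : ℕ}
    (hD : P.totalDegree ≤ D) :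
    (MvPolynomial.aeval (fun j => C (a j) + X * C (algebraMap K W (p j))) P).natDegree ≤ D ∧
    (MvPolynomial.aeval (fun j => C (a j) + X * C (algebraMap K W (p j))) P).coeff D =
      algebraMap K W (MvPolynomial.eval p (MvPolynomial.homogeneousComponent D P)) := by
  classical
  set R := MvPolynomial.aeval (fun j => C (a j) + X * C (algebraMap K W (p j))) P with hR
  have hsum : R = ∑ d ∈ P.support, C (algebraMap K W (MvPolynomial.coeff d P)) *
      ∏ j, (C (a j) + X * C (algebraMap K W (p j))) ^ d j := by
    rw [hR, MvPolynomial.aeval_def, MvPolynomial.eval₂_eq']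
    rfl
  have hterm := fun d : ι →₀ ℕ =>
    prod_lin_coeff a (fun j => algebraMap K W (p j)) d Finset.univ
  constructor
  · rw [hsum]
    refine natDegree_sum_le_of_forall_le _ _ fun d hd => ?_
    refine (natDegree_C_mul_le _ _).trans ((hterm d).1.trans ?_)
    rw [← Finsupp.degree_eq_sum]
    exact (MvPolynomial.le_totalDegree hd).trans hD
  · rw [hsum, finsetSum_coeff, MvPolynomial.homogeneousComponent_apply, map_sum, map_sum,
      Finset.sum_filter]
    refine Finset.sum_congr rfl fun d hd => ?_
    rw [coeff_C_mul]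
    split_ifs with h
    · have h2 := (hterm d).2
      rw [← Finsupp.degree_eq_sum, h] at h2
      rw [h2, MvPolynomial.eval_monomial, Finsupp.prod_fintype _ _ (fun j => pow_zero (p j)),
        map_mul, map_prod]
      simp only [map_pow]
    · rw [coeff_eq_zero_of_natDegree_lt, mul_zero]
      refine lt_of_le_of_lt (hterm d).1 ?_
      rw [← Finsupp.degree_eq_sum]
      exact lt_of_le_of_ne ((MvPolynomial.le_totalDegree hd).trans hD) h

/-- One elimination step: if `P(u) = 0` and the top component of `P` does not vanish at `p`, then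
all `u j` are integral over the projection of `u` from `p`. -/
theorem elim_integral {L : Type*} [Field L] [Algebra K L] {m : ℕ} (u : Fin (m + 1) → L)
    (P : MvPolynomial (Fin (m + 1)) K) (hP : MvPolynomial.aeval u P = 0) (p : Fin (m + 1) → K)
    {D : ℕ} (hD : P.totalDegree ≤ D)
    (hp : MvPolynomial.eval p (MvPolynomial.homogeneousComponent D P) ≠ 0)
    (i0 : Fin (m + 1)) (hi0 : p i0 ≠ 0) (w : Fin m → L)
    (hw : ∀ j, w j = algebraMap K L (p i0) * u (i0.succAbove j) -
      algebraMap K L (p (i0.succAbove j)) * u i0) :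
    ∀ j, IsIntegral (Algebra.adjoin K (Set.range w)) (u j) := by
  classical
  let W := Algebra.adjoin K (Set.range w)
  let wt : Fin (m + 1) → W := i0.insertNth 0
    (fun j => algebraMap K W (p i0)⁻¹ * ⟨w j, Algebra.subset_adjoin ⟨j, rfl⟩⟩)
  let t : L := u i0 * (algebraMap K L (p i0))⁻¹
  have hpi : algebraMap K L (p i0) ≠ 0 := by
    rw [Ne, map_eq_zero]; exact hi0
  have hu : ∀ j, u j = (wt j : L) + t * algebraMap K L (p j) := by
    intro j
    refine Fin.succAboveCases i0 ?_ (fun j => ?_) j
    · simp only [wt, t, Fin.insertNth_apply_same]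
      field_simp
      simp
    · simp only [wt, t, Fin.insertNth_apply_succAbove]
      have : ((algebraMap K W (p i0)⁻¹ * ⟨w j, Algebra.subset_adjoin ⟨j, rfl⟩⟩ : W) : L) =
          (algebraMap K L (p i0))⁻¹ * w j := by
        rw [← map_inv₀]; rfl
      rw [this, hw]
      field_simp
      ring
  obtain ⟨hdeg, hcoeff⟩ := lin_coeff P wt p hD
  set R := MvPolynomial.aeval (fun j => C (wt j) + X * C (algebraMap K W (p j))) P with hR
  have hRt : eval₂ (algebraMap W L) t R = 0 := by
    rw [← hP]
    have h1 : (eval₂RingHom (algebraMap W L) t).comp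
      (MvPolynomial.aeval (R := K)
        (fun j => C (wt j) + X * C (algebraMap K W (p j)))).toRingHom =
      (MvPolynomial.aeval (R := K) u).toRingHom := by
      apply MvPolynomial.ringHom_ext
      · intro r
        simp only [RingHom.comp_apply, AlgHom.toRingHom_eq_coe, RingHom.coe_coe,
          MvPolynomial.aeval_C, coe_eval₂RingHom]
        have : (algebraMap K W[X]) r = C (algebraMap K W r) := rfl
        rw [this, eval₂_C]
        rfl
      · intro j
        simp only [RingHom.comp_apply, AlgHom.toRingHom_eq_coe, RingHom.coe_coe,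
          MvPolynomial.aeval_X, coe_eval₂RingHom, eval₂_add, eval₂_mul, eval₂_C, eval₂_X]
        rw [hu j]
        rfl
    exact congrArg (fun φ : MvPolynomial (Fin (m + 1)) K →+* L => φ P) h1
  have ht : IsIntegral W t := by
    set c := MvPolynomial.eval p (MvPolynomial.homogeneousComponent D P) with hc
    refine ⟨C (algebraMap K W c⁻¹) * R, ?_, ?_⟩
    · refine monic_of_natDegree_le_of_coeff_eq_one D
        ((natDegree_C_mul_le _ _).trans hdeg) ?_
      rw [coeff_C_mul, hcoeff, ← map_mul, inv_mul_cancel₀ hp, map_one]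
    · rw [eval₂_mul, hRt, mul_zero]
  intro j
  rw [hu j]
  refine IsIntegral.add (isIntegral_algebraMap (R := W) (x := wt j)) (ht.mul ?_)
  have : algebraMap K L (p j) = algebraMap W L (algebraMap K W (p j)) := rfl
  rw [this]
  exact isIntegral_algebraMap

/-- transitivity -/
theorem isIntegral_adjoin_trans {L : Type*} [Field L] [Algebra K L] {κ κ' : Type*} {u : κ → L}
    {w : κ' → L} (hu : ∀ j, IsIntegral (Algebra.adjoin K (Set.range w)) (u j)) {a : L}
    (ha : IsIntegral (Algebra.adjoin K (Set.range u)) a) :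
    IsIntegral (Algebra.adjoin K (Set.range w)) a := by
  let W := Algebra.adjoin K (Set.range w)
  let Cl := integralClosure W L
  have hle : Algebra.adjoin K (Set.range u) ≤ Cl.restrictScalars K := by
    refine Algebra.adjoin_le ?_
    rintro _ ⟨j, rfl⟩
    exact hu j
  have h2 : IsIntegral Cl a := by
    obtain ⟨P, hP, hPa⟩ := ha
    let j : Algebra.adjoin K (Set.range u) →+* Cl :=
      { toFun := fun f => ⟨f.1, hle f.2⟩
        map_one' := rfl
        map_mul' := fun _ _ => rfl
        map_zero' := rfl
        map_add' := fun _ _ => rfl }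
    refine ⟨P.map j, hP.map _, ?_⟩
    rw [eval₂_map]
    exact hPa
  exact isIntegral_trans a h2

end algebraic

end Vale.Agent.P299.H348
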