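import Mathlib

/-!
# Extension of points along integral extensions, and the lifting lemma
-/

namespace Vale.Agent.P299.H348

open Polynomial

/-- Extension of an injective ring homomorphism to `ℂ` along an injective integral ring map. -/
theorem exists_ext_domain {R S : Type*} [CommRing R] [IsDomain R] [CommRing S] [IsDomain S]
    [Algebra R S] [Algebra.IsIntegral R S] (inj : Function.Injective (algebraMap R S))
    (φ : R →+* ℂ) (hφ : Function.Injective φ) :
    ∃ x : S →+* ℂ, x.comp (algebraMap R S) = φ := by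
  let : Algebra R ℂ := φ.toAlgebra
  have : Module.IsTorsionFree R S :=
    Module.isTorsionFree_iff_faithfulSMul.2 ((faithfulSMul_iff_algebraMap_injective R S).2 inj)
  have : Module.IsTorsionFree R ℂ :=
    Module.isTorsionFree_iff_faithfulSMul.2 ((faithfulSMul_iff_algebraMap_injective R ℂ).2 hφ)
  let f : S →ₐ[R] ℂ := IsAlgClosed.lift
  exact ⟨f.toRingHom, by ext r; exact f.commutes r⟩

/-- Extension of a ring homomorphism to `ℂ` along an integral ring map whose kernel is killed. -/
theorem exists_ext_of_isIntegral {R S : Type*} [CommRing R] [CommRing S] (i : R →+* S)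
    (hi : i.IsIntegral) (φ : R →+* ℂ)
    (h : RingHom.ker i ≤ RingHom.ker φ) :
    ∃ x : S →+* ℂ, x.comp i = φ := by
  let := i.toAlgebra
  have : Algebra.IsIntegral R S := ⟨hi⟩
  have hprime : (RingHom.ker φ).IsPrime := RingHom.ker_isPrime φ
  obtain ⟨Q, -, hQ, hQc⟩ := Ideal.exists_ideal_over_prime_of_isIntegral (RingHom.ker φ) (⊥ : Ideal S)
    (by rw [← RingHom.ker_eq_comap_bot]; exact h)
  let P := RingHom.ker φ
  have hle : P ≤ Q.comap (algebraMap R S) := hQc.ge
  let j : (R ⧸ P) →+* (S ⧸ Q) := Ideal.quotientMap Q (algebraMap R S) hle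
  have inj1 : Function.Injective j := Ideal.quotientMap_injective' hQc.le
  have : IsDomain (R ⧸ P) := Ideal.Quotient.isDomain P
  have : IsDomain (S ⧸ Q) := Ideal.Quotient.isDomain Q
  have hj : j.IsIntegral := by
    intro s
    obtain ⟨s, rfl⟩ := Ideal.Quotient.mk_surjective s
    obtain ⟨p, hp, hps⟩ := hi s
    refine ⟨p.map (Ideal.Quotient.mk P), hp.map _, ?_⟩
    rw [eval₂_map]
    have : j.comp (Ideal.Quotient.mk P) = (Ideal.Quotient.mk Q).comp i := by
      ext r
      simp only [RingHom.comp_apply]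
      exact Ideal.quotientMap_mk
    rw [this, ← hom_eval₂, hps, map_zero]
  let := j.toAlgebra
  have : Algebra.IsIntegral (R ⧸ P) (S ⧸ Q) := ⟨hj⟩
  obtain ⟨f, hf⟩ := exists_ext_domain (R := R ⧸ P) (S := S ⧸ Q) inj1 (RingHom.kerLift φ)
    (RingHom.kerLift_injective φ)
  refine ⟨f.comp (Ideal.Quotient.mk Q), ?_⟩
  ext r
  have h1 := RingHom.congr_fun hf (Ideal.Quotient.mk P r)
  have h2 : algebraMap (R ⧸ P) (S ⧸ Q) (Ideal.Quotient.mk P r) =
      Ideal.Quotient.mk Q (algebraMap R S r) := Ideal.quotientMap_mk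
  rw [RingHom.comp_apply, h2] at h1
  simp only [RingHom.comp_apply]
  exact h1

end Vale.Agent.P299.H348
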