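import Mathlib
import Vale.Agent.P299.H348.Ext

/-!
# The lifting lemma: points of the total space over a point of the base and a root of the minimal
polynomial
-/

namespace Vale.Agent.P299.H348

open Polynomial

variable {R F : Type*} [CommRing R] [IsDomain R] [Field F] [Algebra R F]

omit [IsDomain R] in
theorem monic_unit_smul {R₁ : Type*} [CommRing R₁] [Nontrivial R₁] [Algebra R R₁]
    {P : R[X]} (hu : IsUnit (algebraMap R R₁ P.leadingCoeff)) :
    ∃ u : R₁ˣ, (u • P.map (algebraMap R R₁)).Monic := by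
  have h2 : (P.map (algebraMap R R₁)).leadingCoeff = algebraMap R R₁ P.leadingCoeff :=
    leadingCoeff_map_of_leadingCoeff_ne_zero _ hu.ne_zero
  have h3 : IsUnit (P.map (algebraMap R R₁)).leadingCoeff := by rw [h2]; exact hu
  exact ⟨h3.unit⁻¹, monic_of_isUnit_leadingCoeff_inv_smul h3⟩

omit [IsDomain R] in
theorem isIntegral_of_leadingCoeff {R₁ : Type*} [CommRing R₁] [Algebra R R₁] [Algebra R₁ F]
    [IsScalarTower R R₁ F] {a : F} {P : R[X]} (hPa : aeval a P = 0)
    (hu : IsUnit (algebraMap R R₁ P.leadingCoeff)) : IsIntegral R₁ a := by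
  have : Nontrivial R₁ := (algebraMap R₁ F).domain_nontrivial
  obtain ⟨u, hm⟩ := monic_unit_smul hu
  refine ⟨_, hm, ?_⟩
  have : eval₂ (algebraMap R₁ F) a (P.map (algebraMap R R₁)) = 0 := by
    rw [eval₂_map, ← IsScalarTower.algebraMap_eq]; exact hPa
  rw [Units.smul_def, smul_eq_C_mul, eval₂_mul, this, mul_zero]

/-- **Lifting lemma.** `μ` a nonzero polynomial of least degree over the domain `R` killing `θ`,
`s` a finite set of elements of `F` algebraic over `R`, `θ ∈ R[s]`.  For every homomorphism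
`ψ : R → ℂ` not killing some fixed nonzero `q`, and every root `r` of `ψ(μ)` there is a
homomorphism `x : R[s] → ℂ` extending `ψ` with `x(θ) = r`. -/
theorem lift (inj : Function.Injective (algebraMap R F)) (s : Finset F)
    (hs : ∀ a ∈ s, IsAlgebraic R a) (θ : F) (hθ : θ ∈ Algebra.adjoin R (s : Set F))
    (μ : R[X]) (hμ0 : μ ≠ 0) (hμ : aeval θ μ = 0)
    (hmin : ∀ P : R[X], aeval θ P = 0 → P.degree < μ.degree → P = 0) :
    ∃ q : R, q ≠ 0 ∧ μ.leadingCoeff ∣ q ∧ ∀ (ψ : R →+* ℂ), ψ q ≠ 0 → ∀ r : ℂ, eval₂ ψ r μ = 0 →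
      ∃ x : (Algebra.adjoin R (s : Set F)) →+* ℂ,
        (∀ a : R, x (algebraMap R _ a) = ψ a) ∧ x ⟨θ, hθ⟩ = r := by
  classical
  choose! P hP0 hPa using hs
  let q : R := μ.leadingCoeff * ∏ a ∈ s, (P a).leadingCoeff
  have hq : q ≠ 0 := mul_ne_zero (leadingCoeff_ne_zero.2 hμ0)
    (Finset.prod_ne_zero_iff.2 fun a ha => leadingCoeff_ne_zero.2 (hP0 a ha))
  refine ⟨q, hq, dvd_mul_right _ _, fun ψ hψ r hr => ?_⟩
  let R₁ := Localization.Away q
  have hqF : IsUnit (algebraMap R F q) :=
    isUnit_iff_ne_zero.2 (fun h => hq (inj (by rw [h, map_zero])))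
  let : Algebra R₁ F := (IsLocalization.Away.lift q hqF : R₁ →+* F).toAlgebra
  have tower : IsScalarTower R R₁ F := IsScalarTower.of_algebraMap_eq fun a =>
    (IsLocalization.Away.lift_eq q hqF a).symm
  have inj1 : Function.Injective (algebraMap R R₁) :=
    IsLocalization.injective _ (powers_le_nonZeroDivisors_of_noZeroDivisors hq)
  have : IsDomain R₁ := Localization.Away.isDomain hq
  let A₁ : Subalgebra R₁ F := Algebra.adjoin R₁ (s : Set F)
  have hunit : ∀ c : R, c ∣ q → IsUnit (algebraMap R R₁ c) := fun c hc =>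
    IsLocalization.Away.isUnit_of_dvd (x := q) hc
  have int1 : Algebra.IsIntegral R₁ A₁ := by
    refine Algebra.IsIntegral.adjoin fun a ha => ?_
    exact isIntegral_of_leadingCoeff (hPa a ha)
      (hunit _ (dvd_mul_of_dvd_right (Finset.dvd_prod_of_mem _ ha) _))
  have hsub : ∀ f : F, f ∈ Algebra.adjoin R (s : Set F) → f ∈ A₁ := by
    have : Algebra.adjoin R (s : Set F) ≤ A₁.restrictScalars R :=
      Algebra.adjoin_le Algebra.subset_adjoin
    exact fun f hf => this hf
  let ψ₁ : R₁ →+* ℂ := IsLocalization.Away.lift q (isUnit_iff_ne_zero.2 hψ)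
  have hψ₁ : ψ₁.comp (algebraMap R R₁) = ψ := IsLocalization.Away.lift_comp _ _
  let θ₁ : A₁ := ⟨θ, hsub θ hθ⟩
  let i : R₁[X] →+* A₁ := (aeval θ₁ : R₁[X] →ₐ[R₁] A₁).toRingHom
  have hi : i.IsIntegral := by
    refine RingHom.IsIntegral.tower_top (C : R₁ →+* R₁[X]) i ?_
    have : i.comp C = algebraMap R₁ A₁ := by
      ext a; simp [i]
    rw [this]
    exact fun x => Algebra.IsIntegral.isIntegral x
  -- the monic version of `μ`
  obtain ⟨u, hm⟩ := monic_unit_smul (R₁ := R₁) (hunit μ.leadingCoeff (dvd_mul_right _ _))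
  have hm0 : eval₂ ψ₁ r (u • μ.map (algebraMap R R₁)) = 0 := by
    rw [Units.smul_def, smul_eq_C_mul, eval₂_mul, eval₂_map, hψ₁, hr, mul_zero]
  have hmdeg : (u • μ.map (algebraMap R R₁)).degree = μ.degree := by
    rw [Units.smul_def, smul_eq_C_mul, degree_C_mul_of_mul_ne_zero, degree_map_eq_of_injective inj1]
    exact mul_ne_zero u.ne_zero (leadingCoeff_ne_zero.2
      ((Polynomial.map_ne_zero_iff inj1).2 hμ0))
  have hθm : aeval θ (u • μ.map (algebraMap R R₁)) = 0 := by
    rw [Units.smul_def, smul_eq_C_mul, map_mul, aeval_map_algebraMap, hμ, mul_zero]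
  have hker : RingHom.ker i ≤ RingHom.ker (eval₂RingHom ψ₁ r) := by
    intro Q hQ
    rw [RingHom.mem_ker] at hQ ⊢
    have hQθ : aeval θ Q = 0 := by
      have h1 := congrArg A₁.val hQ
      simpa [i, θ₁, ← Polynomial.aeval_algHom_apply] using h1
    set m := u • μ.map (algebraMap R R₁) with hmdef
    have hdiv := modByMonic_add_div Q m
    have hrem : aeval θ (Q %ₘ m) = 0 := by
      have h1 := congrArg (aeval θ) hdiv
      rw [map_add, map_mul, hθm, zero_mul, add_zero, hQθ] at h1
      exact h1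
    have hrem0 : Q %ₘ m = 0 := by
      rw [← IsLocalization.integerNormalization_eq_zero_iff (M := Submonoid.powers q)
        (powers_le_nonZeroDivisors_of_noZeroDivisors hq)]
      apply hmin _ (IsLocalization.integerNormalization_aeval_eq_zero _ _ hrem)
      refine lt_of_le_of_lt (degree_mono ?_) (lt_of_lt_of_eq (degree_modByMonic_lt Q hm) hmdeg)
      exact IsLocalization.integerNormalization_support _ _
    rw [← hdiv, hrem0, zero_add, map_mul]
    have : eval₂RingHom ψ₁ r m = 0 := hm0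
    rw [this, zero_mul]
  obtain ⟨x, hx⟩ := exists_ext_of_isIntegral i hi (eval₂RingHom ψ₁ r) hker
  have key : ∀ Q : R₁[X], x (i Q) = eval₂ ψ₁ r Q := fun Q => RingHom.congr_fun hx Q
  let j : (Algebra.adjoin R (s : Set F)) →+* A₁ :=
    { toFun := fun f => ⟨f.1, hsub f.1 f.2⟩
      map_one' := rfl
      map_mul' := fun _ _ => rfl
      map_zero' := rfl
      map_add' := fun _ _ => rfl }
  refine ⟨x.comp j, fun a => ?_, ?_⟩
  · have h1 := key (C (algebraMap R R₁ a))
    rw [eval₂_C] at h1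
    have h2 : ψ₁ (algebraMap R R₁ a) = ψ a := RingHom.congr_fun hψ₁ a
    rw [h2] at h1
    rw [← h1]
    simp only [RingHom.comp_apply]
    congr 1
    apply Subtype.ext
    simp [i, j, ← IsScalarTower.algebraMap_apply R R₁ F]
  · have h1 := key X
    rw [eval₂_X] at h1
    rw [← h1]
    simp only [RingHom.comp_apply]
    congr 1
    apply Subtype.ext
    simp [i, j, θ₁]

end Vale.Agent.P299.H348
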