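import Mathlib
import Vale.Agent.P299.H348.Lift

/-!
# The lifting lemma for a ring homomorphism of finite type (form used in step (5.1))
-/

namespace Vale.Agent.P299.H348

open Polynomial

/-- a nonzero polynomial of least degree killing an algebraic element -/
theorem exists_least {R A : Type*} [CommRing R] [CommRing A] (i : R →+* A) (a : A)
    (h : ∃ P : R[X], P ≠ 0 ∧ P.eval₂ i a = 0) :
    ∃ μ : R[X], μ ≠ 0 ∧ μ.eval₂ i a = 0 ∧
      ∀ P : R[X], P.eval₂ i a = 0 → P.degree < μ.degree → P = 0 := by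
  classical
  let S : Set R[X] := {P | P ≠ 0 ∧ P.eval₂ i a = 0}
  have hS : S.Nonempty := h
  let f : R[X] → ℕ := natDegree
  obtain ⟨μ, hμ, hmin⟩ : ∃ μ ∈ S, ∀ P ∈ S, f μ ≤ f P :=
    ⟨Function.argminOn f S hS, Function.argminOn_mem f S hS,
      fun P hP => Function.argminOn_le f S hP⟩
  refine ⟨μ, hμ.1, hμ.2, fun P hP hdeg => ?_⟩
  by_contra hP0
  have h1 := hmin P ⟨hP0, hP⟩
  have h2 := natDegree_lt_natDegree hP0 hdeg
  simp only [f] at h1
  omega

/-- The lifting property. -/
def Lift {R A : Type*} [CommRing R] [CommRing A] (i : R →+* A) {s : ℕ} (θ : Fin s → A) : Prop :=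
  ∃ q : R, q ≠ 0 ∧ (∀ φ : R →+* ℂ, φ q ≠ 0 → ∃ x : A →+* ℂ, x.comp i = φ) ∧
    ∀ l, ∃ P : Polynomial R, P.leadingCoeff = q ∧ 0 < P.natDegree ∧ P.eval₂ i (θ l) = 0 ∧
      (θ l ≠ 0 → P.coeff 0 ≠ 0) ∧
      ∀ φ : R →+* ℂ, φ q ≠ 0 → ∀ ρ : ℂ, P.eval₂ φ ρ = 0 →
        ∃ x : A →+* ℂ, x.comp i = φ ∧ x (θ l) = ρ

theorem liftHom {R A : Type*} [CommRing R] [IsDomain R] [CommRing A] [IsDomain A]
    (i : R →+* A) (hi : Function.Injective i) (hft : i.FiniteType)
    (halg : ∀ a : A, ∃ P : R[X], P ≠ 0 ∧ P.eval₂ i a = 0) {s : ℕ} (θ : Fin s → A) :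
    Lift i θ := by
  classical
  let : Algebra R A := i.toAlgebra
  have : Algebra.FiniteType R A := hft
  let F := FractionRing A
  have towF : IsScalarTower R A F := inferInstance
  have injA : Function.Injective (algebraMap A F) := IsFractionRing.injective A F
  have injF : Function.Injective (algebraMap R F) := by
    rw [IsScalarTower.algebraMap_eq R A F]
    exact injA.comp hi
  obtain ⟨S, hS⟩ := Algebra.FiniteType.out (R := R) (A := A)
  let SF : Finset F := S.image (algebraMap A F)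
  have hSF : Algebra.adjoin R (SF : Set F) = (IsScalarTower.toAlgHom R A F).range := by
    rw [← Algebra.map_top, ← hS, AlgHom.map_adjoin, Finset.coe_image]
    rfl
  have halgF : ∀ a ∈ SF, IsAlgebraic R a := by
    intro a ha
    obtain ⟨b, -, rfl⟩ := Finset.mem_image.1 ha
    obtain ⟨P, hP0, hP⟩ := halg b
    refine ⟨P, hP0, ?_⟩
    rw [aeval_algebraMap_apply, aeval_def]
    have : eval₂ (algebraMap R A) b P = 0 := hP
    rw [this, map_zero]
  have hmem : ∀ a : A, algebraMap A F a ∈ Algebra.adjoin R (SF : Set F) := fun a => by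
    rw [hSF]; exact ⟨a, rfl⟩
  -- the inclusion `A → adjoin`
  let j : A →+* Algebra.adjoin R (SF : Set F) :=
    { toFun := fun a => ⟨algebraMap A F a, hmem a⟩
      map_one' := by ext; simp
      map_mul' := fun a b => by ext; simp
      map_zero' := by ext; simp
      map_add' := fun a b => by ext; simp }
  have hj : ∀ (x : Algebra.adjoin R (SF : Set F) →+* ℂ) (φ : R →+* ℂ),
      (∀ a : R, x (algebraMap R _ a) = φ a) → (x.comp j).comp i = φ := by
    intro x φ hx
    ext a
    rw [← hx a]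
    simp only [RingHom.comp_apply]
    congr 1
  -- minimal polynomials
  choose μ hμ0 hμ hmin using fun l => exists_least i (θ l) (halg (θ l))
  have key := fun l => lift injF SF halgF (algebraMap A F (θ l)) (hmem (θ l)) (μ l) (hμ0 l)
    (by rw [aeval_algebraMap_apply, aeval_def]
        have : eval₂ (algebraMap R A) (θ l) (μ l) = 0 := hμ l
        rw [this, map_zero])
    (by
      intro P hP hdeg
      refine hmin l P ?_ hdeg
      rw [aeval_algebraMap_apply, aeval_def] at hP
      exact injA (by rw [map_zero]; exact hP))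
  choose q hq hlc hlift using key
  -- also lift with no root (take the element `1`)
  obtain ⟨q₀, hq₀, -, hlift₀⟩ := lift injF SF halgF (1 : F) (one_mem _) (X - 1) (X_sub_C_ne_zero 1)
    (by simp) (by
      intro P hP hdeg
      have h1 : (X - 1 : R[X]).degree = 1 := degree_X_sub_C 1
      rw [h1] at hdeg
      have h2 : P = C (P.coeff 0) := eq_C_of_degree_le_zero (by
        exact Nat.WithBot.lt_one_iff_le_zero.1 hdeg)
      rw [h2] at hP ⊢
      rw [aeval_C] at hP
      rw [injF (by rw [hP, map_zero] : algebraMap R F (P.coeff 0) = algebraMap R F 0), map_zero])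
  let Q : R := q₀ * ∏ l, q l
  have hQ : Q ≠ 0 := mul_ne_zero hq₀ (Finset.prod_ne_zero_iff.2 fun l _ => hq l)
  have hQl : ∀ l, q l ∣ Q := fun l => dvd_mul_of_dvd_right
    (Finset.dvd_prod_of_mem q (Finset.mem_univ l)) _
  refine ⟨Q, hQ, fun φ hφ => ?_, fun l => ?_⟩
  · have h1 : φ q₀ ≠ 0 := by
      intro h
      apply hφ
      rw [map_mul, h, zero_mul]
    obtain ⟨x, hx, -⟩ := hlift₀ φ h1 1 (by simp)
    exact ⟨x.comp j, hj x φ hx⟩
  · obtain ⟨c, hc⟩ := (hlc l).trans (hQl l)
    have hc0 : c ≠ 0 := by rintro rfl; rw [mul_zero] at hc; exact hQ hc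
    refine ⟨C c * μ l, ?_, ?_, ?_, ?_, ?_⟩
    · rw [leadingCoeff_mul, leadingCoeff_C, hc, mul_comm]
    · rw [natDegree_C_mul hc0]
      by_contra h
      have h0 : (μ l).natDegree = 0 := by omega
      rw [natDegree_eq_zero] at h0
      obtain ⟨b, hb⟩ := h0
      have h1 := hμ l
      rw [← hb, eval₂_C] at h1
      have h2 : b = 0 := hi (by rw [h1, map_zero])
      apply hμ0 l
      rw [← hb, h2, map_zero]
    · rw [eval₂_mul, hμ l, mul_zero]
    · intro hθ h0
      rw [coeff_C_mul, mul_eq_zero] at h0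
      have h1 : (μ l).coeff 0 = 0 := h0.resolve_left hc0
      obtain ⟨ν, hν⟩ := X_dvd_iff.2 h1
      have hν0 : ν ≠ 0 := by
        rintro rfl
        rw [mul_zero] at hν
        exact hμ0 l hν
      apply hν0
      refine hmin l ν ?_ ?_
      · have h2 := hμ l
        rw [hν, eval₂_mul, eval₂_X, mul_eq_zero] at h2
        exact h2.resolve_left hθ
      · rw [hν, X_mul, degree_mul_X]
        have : ν.degree ≠ ⊥ := fun h => hν0 (degree_eq_bot.1 h)
        rw [degree_eq_natDegree hν0]
        exact_mod_cast Nat.lt_succ_self _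
    · intro φ hφ ρ hρ
      have hφc : φ c ≠ 0 := by
        intro h
        apply hφ
        rw [hc, map_mul, h, mul_zero]
      have hφq : φ (q l) ≠ 0 := by
        obtain ⟨d, hd⟩ := hQl l
        intro h
        apply hφ
        rw [hd, map_mul, h, zero_mul]
      rw [eval₂_mul, eval₂_C, mul_eq_zero] at hρ
      obtain ⟨x, hx, hxρ⟩ := hlift l φ hφq ρ (hρ.resolve_left hφc)
      exact ⟨x.comp j, hj x φ hx, hxρ⟩

end Vale.Agent.P299.H348
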