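import Mathlib
import Vale.Agent.P299.H348.Poly

/-!
# Divisibility over the generic point from divisibility at the closed points
-/

namespace Vale.Agent.P299.H348

open MvPolynomial

variable {B : Type*} [CommRing B] [IsDomain B] [Algebra ℂ B] [Algebra.FiniteType ℂ B]
variable {ι : Type*} [Fintype ι]

omit [Algebra ℂ B] [Algebra.FiniteType ℂ B] [Fintype ι] in
/-- clear denominators of a polynomial over the fraction field -/
theorem exists_clear {K : Type*} [Field K] [Algebra B K] [IsFractionRing B K]
    (c : MvPolynomial ι K) :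
    ∃ b : B, b ≠ 0 ∧ ∃ c₀ : MvPolynomial ι B, c₀.totalDegree ≤ c.totalDegree ∧
      map (algebraMap B K) c₀ = C (algebraMap B K b) * c := by
  classical
  obtain ⟨b, hb⟩ := IsLocalization.exist_integer_multiples_of_finset (nonZeroDivisors B)
    (c.support.image fun d => coeff d c)
  have hb' : ∀ d ∈ c.support, ∃ a : B, algebraMap B K a =
      algebraMap B K b * coeff d c := by
    intro d hd
    obtain ⟨a, ha⟩ := hb (coeff d c) (Finset.mem_image_of_mem _ hd)
    exact ⟨a, by rw [ha, Algebra.smul_def]⟩
  choose! a ha using hb'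
  refine ⟨b, nonZeroDivisors.coe_ne_zero b, ∑ d ∈ c.support, monomial d (a d), ?_, ?_⟩
  · refine Finset.sup_mono ((support_sum).trans ?_)
    intro d hd
    rw [Finset.mem_biUnion] at hd
    obtain ⟨e, he, hde⟩ := hd
    have := support_monomial_subset hde
    rw [Finset.mem_singleton] at this
    rw [this]; exact he
  · rw [map_sum]
    conv_rhs => rw [c.as_sum, Finset.mul_sum]
    refine Finset.sum_congr rfl fun d hd => ?_
    rw [map_monomial, C_mul_monomial, ha d hd]

/-- If at every closed point (outside a hypersurface) `q(y)` divides `p(y)` with a quotient of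
degree `≤ i`, then the same holds over the fraction field. -/
theorem spec_quotient {p q : MvPolynomial ι B} {i : ℕ} {g : B} (hg : g ≠ 0)
    (h : ∀ y : B →ₐ[ℂ] ℂ, y g ≠ 0 → ∃ c : MvPolynomial ι ℂ,
      map (y : B →+* ℂ) p = map (y : B →+* ℂ) q * c ∧ c.totalDegree ≤ i) :
    ∃ b : B, b ≠ 0 ∧ ∃ c : MvPolynomial ι B, C b * p = q * c ∧ c.totalDegree ≤ i := by
  classical
  let K := FractionRing B
  let j : B →+* K := algebraMap B K
  have hj : Function.Injective j := IsFractionRing.injective B K
  let W : Submodule K (MvPolynomial ι K) :=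
    (restrictTotalDegree ι K i).map (LinearMap.mulLeft K (map j q))
  by_cases hp : map j p ∈ W
  · obtain ⟨c, hc, hcp⟩ := hp
    rw [SetLike.mem_coe, mem_restrictTotalDegree] at hc
    obtain ⟨b, hb, c₀, hsupp, hc₀⟩ := exists_clear (B := B) c
    refine ⟨b, hb, c₀, ?_, hsupp.trans hc⟩
    apply map_injective j hj
    rw [map_mul, map_mul, map_C, hc₀, ← hcp]
    simp only [LinearMap.mulLeft_apply]
    ring
  · exfalso
    obtain ⟨φ, hφp, hφW⟩ := Submodule.exists_le_ker_of_notMem hp
    let N := max p.totalDegree (q.totalDegree + i)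
    let T : Finset (ι →₀ ℕ) := (Finsupp.finite_of_degree_le (σ := ι) N).toFinset
    have hT : ∀ d : ι →₀ ℕ, d ∈ T ↔ d.degree ≤ N := fun d => by simp [T]
    have hTsupp : ∀ {R : Type _} [CommSemiring R] (f : MvPolynomial ι R), f.totalDegree ≤ N →
        f.support ⊆ T := by
      intro R _ f hf d hd
      rw [hT]
      exact (le_totalDegree hd).trans hf
    obtain ⟨b, hb⟩ := IsLocalization.exist_integer_multiples_of_finset (nonZeroDivisors B)
      (T.image fun d => φ (monomial d 1))
    have hb' : ∀ d ∈ T, ∃ a : B, algebraMap B K a = algebraMap B K b * φ (monomial d 1) := by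
      intro d hd
      obtain ⟨a, ha⟩ := hb (φ (monomial d 1)) (Finset.mem_image_of_mem _ hd)
      exact ⟨a, by rw [ha, Algebra.smul_def]⟩
    choose! a ha using hb'
    let Φ : MvPolynomial ι B → B := fun f => ∑ d ∈ T, coeff d f * a d
    have hΦ : ∀ f : MvPolynomial ι B, f.totalDegree ≤ N →
        algebraMap B K (Φ f) = algebraMap B K b * φ (map j f) := by
      intro f hf
      have h1 : map j f = ∑ d ∈ T, j (coeff d f) • monomial d (1 : K) := by
        conv_lhs => rw [f.as_sum, map_sum]
        rw [Finset.sum_subset (hTsupp f hf)]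
        · refine Finset.sum_congr rfl fun d _ => ?_
          rw [map_monomial, smul_monomial, smul_eq_mul, mul_one]
        · intro d _ hd
          rw [notMem_support_iff.1 hd, map_zero, map_zero]
      rw [h1, map_sum φ, Finset.mul_sum]
      simp only [Φ, map_sum, map_mul, map_smul, smul_eq_mul]
      refine Finset.sum_congr rfl fun d hd => ?_
      rw [ha d hd]
      ring
    have hΦp : Φ p ≠ 0 := by
      intro h0
      have h1 := hΦ p (le_max_left _ _)
      rw [h0, map_zero] at h1
      have h2 : algebraMap B K b ≠ 0 := fun h => nonZeroDivisors.coe_ne_zero b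
        (hj (by rw [h, map_zero]))
      exact hφp ((mul_eq_zero.1 h1.symm).resolve_left h2)
    have hΦq : ∀ d : ι →₀ ℕ, d.degree ≤ i → Φ (q * monomial d 1) = 0 := by
      intro d hd
      have hdeg : (monomial d (1 : B)).totalDegree ≤ i := by
        refine (totalDegree_monomial_le _ _).trans hd
      have hdegK : (monomial d (1 : K)).totalDegree ≤ i := by
        refine (totalDegree_monomial_le _ _).trans hd
      have h1 := hΦ (q * monomial d 1) ((totalDegree_mul _ _).trans
        ((Nat.add_le_add_left hdeg _).trans (le_max_right _ _)))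
      have h2 : map j (q * monomial d 1) ∈ W := by
        refine ⟨monomial d 1, ?_, ?_⟩
        · rw [SetLike.mem_coe, mem_restrictTotalDegree]
          exact hdegK
        · rw [LinearMap.mulLeft_apply, map_mul, map_monomial, map_one j]
      have h3 : φ (map j (q * monomial d 1)) = 0 := hφW h2
      rw [h3, mul_zero] at h1
      exact hj (by rw [h1, map_zero])
    obtain ⟨y, hy⟩ := exists_point (mul_ne_zero hg hΦp)
    rw [map_mul] at hy
    obtain ⟨c, hc, hcdeg⟩ := h y (left_ne_zero_of_mul hy)
    let Φy : MvPolynomial ι ℂ → ℂ := fun f => ∑ d ∈ T, coeff d f * y (a d)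
    have hΦy : ∀ f : MvPolynomial ι B, y (Φ f) = Φy (map (y : B →+* ℂ) f) := by
      intro f
      simp only [Φ, Φy, map_sum, map_mul, coeff_map]
      rfl
    have hadd : ∀ (s : Finset (ι →₀ ℕ)) (f : (ι →₀ ℕ) → MvPolynomial ι ℂ),
        Φy (∑ d ∈ s, f d) = ∑ d ∈ s, Φy (f d) := by
      intro s f
      simp only [Φy, coeff_sum, Finset.sum_mul]
      exact Finset.sum_comm
    have hsmul : ∀ (r : ℂ) (f : MvPolynomial ι ℂ), Φy (C r * f) = r * Φy f := by
      intro r f
      simp only [Φy, coeff_C_mul, Finset.mul_sum, mul_assoc]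
    apply right_ne_zero_of_mul hy
    rw [hΦy, hc, c.as_sum, Finset.mul_sum, hadd]
    refine Finset.sum_eq_zero fun d hd => ?_
    have h1 : map (y : B →+* ℂ) q * monomial d (coeff d c) =
        C (coeff d c) * map (y : B →+* ℂ) (q * monomial d 1) := by
      rw [map_mul, map_monomial, map_one]
      have : monomial d (coeff d c) = C (coeff d c) * monomial d (1 : ℂ) := by
        rw [C_mul_monomial, mul_one]
      rw [this]
      ring
    rw [h1, hsmul, ← hΦy, hΦq d ((le_totalDegree hd).trans hcdeg), map_zero, mul_zero]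

end Vale.Agent.P299.H348
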