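import Mathlib
import Vale.Agent.P299.H348.Elim
import Vale.Agent.P299.H348.Spec

/-!
# Uniform Noether normalisation
-/

namespace Vale.Agent.P299.H348

open Filter Topology

section step

variable {B A : Type*} [CommRing B] [IsDomain B] [CharZero B] [CommRing A] [IsDomain A]
  [Algebra B A]

/-- the fibrewise values of `u` are stable under scaling -/
def Scal (B : Type*) {A : Type*} [CommRing B] [CommRing A] [Algebra B A] {m : ℕ}
    (u : Fin m → A) : Prop :=
  ∀ (x : A →+* ℂ) (z : ℂ), ∃ x' : A →+* ℂ,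
    x'.comp (algebraMap B A) = x.comp (algebraMap B A) ∧ ∀ i, x' (u i) = z * x (u i)

/-- the linear combinations with integer coefficients -/
def lc {A : Type*} [CommRing A] {m n : ℕ} (l : Fin m → Fin n → ℤ) (v : Fin n → A) : Fin m → A :=
  fun i => ∑ j, (l i j : A) * v j

omit [IsDomain B] [CharZero B] [IsDomain A] in
theorem Scal.lc {m n : ℕ} {v : Fin n → A} (h : Scal B v) (l : Fin m → Fin n → ℤ) :
    Scal B (lc l v) := by
  intro x z
  obtain ⟨x', h1, h2⟩ := h x z
  refine ⟨x', h1, fun i => ?_⟩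
  simp only [H348.lc, map_sum, map_mul, map_intCast, h2, Finset.mul_sum]
  refine Finset.sum_congr rfl fun j _ => ?_
  ring

theorem lc_lc {A : Type*} [CommRing A] {k m n : ℕ} (l : Fin m → Fin n → ℤ)
    (p : Fin k → Fin m → ℤ) (v : Fin n → A) :
    lc p (lc l v) = lc (fun i j => ∑ a, p i a * l a j) v := by
  ext i
  simp only [lc, Finset.mul_sum, Int.cast_sum, Int.cast_mul, Finset.sum_mul]
  rw [Finset.sum_comm]
  refine Finset.sum_congr rfl fun j _ => Finset.sum_congr rfl fun a _ => ?_
  ring

omit [IsDomain B] [CharZero B] [IsDomain A] in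
theorem apply_aeval {m : ℕ} {u : Fin m → A} {x : A →+* ℂ} {y : B →+* ℂ}
    (hx : x.comp (algebraMap B A) = y) (P : MvPolynomial (Fin m) B) :
    x (MvPolynomial.aeval u P) = MvPolynomial.eval (fun i => x (u i)) (MvPolynomial.map y P) := by
  have h : x.comp (MvPolynomial.aeval (R := B) u).toRingHom =
      (MvPolynomial.eval (fun i => x (u i))).comp (MvPolynomial.map y) := by
    apply MvPolynomial.ringHom_ext
    · intro b; rw [← hx]; simp
    · intro i; simp
  exact congrArg (fun f : MvPolynomial (Fin m) B →+* ℂ => f P) h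

theorem map_homogeneousComponent {R S : Type*} [CommSemiring R] [CommSemiring S] {σ : Type*}
    (f : R →+* S) (k : ℕ) (P : MvPolynomial σ R) :
    MvPolynomial.map f (MvPolynomial.homogeneousComponent k P) =
      MvPolynomial.homogeneousComponent k (MvPolynomial.map f P) := by
  classical
  ext d
  rw [MvPolynomial.coeff_map, MvPolynomial.coeff_homogeneousComponent,
    MvPolynomial.coeff_homogeneousComponent, MvPolynomial.coeff_map]
  split_ifs <;> simp

omit [IsDomain B] [CharZero B] [IsDomain A] in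
/-- all homogeneous components of a relation vanish on the values -/
theorem vanish {m : ℕ} {u : Fin m → A} (hu : Scal B u) {P : MvPolynomial (Fin m) B}
    (hP : MvPolynomial.aeval u P = 0) {x : A →+* ℂ} {y : B →+* ℂ}
    (hx : x.comp (algebraMap B A) = y) (k : ℕ) :
    MvPolynomial.eval (fun i => x (u i))
      (MvPolynomial.homogeneousComponent k (MvPolynomial.map y P)) = 0 := by
  refine eval_homogeneousComponent_eq_zero (fun s _ => ?_) k
  obtain ⟨x', hx', hx's⟩ := hu x s
  have h1 := apply_aeval (u := u) (hx'.trans hx) P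
  rw [hP, map_zero] at h1
  rw [h1]
  congr 2
  ext i
  rw [hx's i]
  rfl

/-- the projection of `Fin (m+1)`-tuples from the point `p` (`p i0 ≠ 0`) -/
def proj {m : ℕ} (p : Fin (m + 1) → ℤ) (i0 : Fin (m + 1)) : Fin m → Fin (m + 1) → ℤ :=
  fun j k => (if k = i0.succAbove j then p i0 else 0) - (if k = i0 then p (i0.succAbove j) else 0)

theorem lc_proj {A : Type*} [CommRing A] {m : ℕ} (p : Fin (m + 1) → ℤ) (i0 : Fin (m + 1))
    (u : Fin (m + 1) → A) (j : Fin m) :
    lc (proj p i0) u j = (p i0 : A) * u (i0.succAbove j) - (p (i0.succAbove j) : A) * u i0 := by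
  simp only [lc, proj, Int.cast_sub, sub_mul, Finset.sum_sub_distrib]
  congr 1
  · rw [Finset.sum_eq_single (i0.succAbove j)]
    · simp
    · intro b _ hb; simp [hb]
    · intro h; exact absurd (Finset.mem_univ _) h
  · rw [Finset.sum_eq_single i0]
    · simp
    · intro b _ hb; simp [hb]
    · intro h; exact absurd (Finset.mem_univ _) h

/-- the estimate of the elimination step at one point -/
theorem step_bound {m : ℕ} {D : ℕ} (p : Fin (m + 1) → ℤ) (i0 : Fin (m + 1)) (hi0 : p i0 ≠ 0)
    {r : ℝ} (hr : 0 < r) {f : MvPolynomial (Fin (m + 1)) ℂ}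
    (hf : ∀ w, MvPolynomial.eval ((fun j => (p j : ℂ)) + w)
      (MvPolynomial.homogeneousComponent D f) = 0 → r ≤ ‖w‖)
    (u : Fin (m + 1) → ℂ)
    (hu : MvPolynomial.eval u (MvPolynomial.homogeneousComponent D f) = 0) :
    ‖u‖ ≤ (‖(fun j => (p j : ℂ))‖ / r + 1) * ‖lc (proj p i0) u‖ := by
  set pc : Fin (m + 1) → ℂ := fun j => (p j : ℂ) with hpc
  have hpi : (p i0 : ℂ) ≠ 0 := by exact_mod_cast hi0
  have hpi1 : 1 ≤ ‖(p i0 : ℂ)‖ := by
    rw [Complex.norm_intCast]
    exact_mod_cast Int.one_le_abs hi0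
  let t : ℂ := u i0 / p i0
  let w : Fin (m + 1) → ℂ := u - t • pc
  have hw : ‖w‖ ≤ ‖lc (proj p i0) u‖ := by
    rw [pi_norm_le_iff_of_nonneg (norm_nonneg _)]
    intro j
    refine Fin.succAboveCases i0 ?_ (fun j => ?_) j
    · have : w i0 = 0 := by
        simp only [w, t, pc, Pi.sub_apply, Pi.smul_apply, smul_eq_mul]
        field_simp
        simp
      rw [this, norm_zero]
      exact norm_nonneg _
    · have h1 : (p i0 : ℂ) * w (i0.succAbove j) = lc (proj p i0) u j := by
        rw [lc_proj]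
        simp only [w, t, pc, Pi.sub_apply, Pi.smul_apply, smul_eq_mul]
        field_simp
      have h2 := norm_le_pi_norm (lc (proj p i0) u) j
      rw [← h1, norm_mul] at h2
      nlinarith [norm_nonneg (w (i0.succAbove j))]
  have hu' : u = t • pc + w := by simp [w]
  have ht : ‖t‖ * r ≤ ‖w‖ := by
    by_cases ht0 : t = 0
    · rw [ht0, norm_zero, zero_mul]; exact norm_nonneg _
    · have h1 : MvPolynomial.eval (pc + t⁻¹ • w) (MvPolynomial.homogeneousComponent D f) = 0 := by
        have h2 : pc + t⁻¹ • w = t⁻¹ • u := by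
          conv_rhs => rw [hu']
          rw [smul_add, smul_smul, inv_mul_cancel₀ ht0, one_smul]
        rw [h2, eval_smul_homogeneousComponent, hu, mul_zero]
      have h3 := hf _ h1
      rw [norm_smul, norm_inv] at h3
      have ht' : 0 < ‖t‖ := norm_pos_iff.2 ht0
      calc ‖t‖ * r ≤ ‖t‖ * (‖t‖⁻¹ * ‖w‖) := mul_le_mul_of_nonneg_left h3 ht'.le
        _ = ‖w‖ := by field_simp
  have ht2 : ‖t‖ ≤ ‖w‖ / r := by rw [le_div_iff₀ hr]; exact ht
  calc ‖u‖ = ‖t • pc + w‖ := by rw [← hu']
    _ ≤ ‖t‖ * ‖pc‖ + ‖w‖ := (norm_add_le _ _).trans (by rw [norm_smul])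
    _ ≤ ‖w‖ / r * ‖pc‖ + ‖w‖ := by
        have := mul_le_mul_of_nonneg_right ht2 (norm_nonneg pc)
        linarith
    _ = (‖pc‖ / r + 1) * ‖w‖ := by ring
    _ ≤ (‖pc‖ / r + 1) * ‖lc (proj p i0) u‖ :=
        mul_le_mul_of_nonneg_left hw (by positivity)

omit [IsDomain A] in
theorem hom_lc {m n : ℕ} (l : Fin m → Fin n → ℤ) (v : Fin n → A) (x : A →+* ℂ) :
    (fun i => x (lc l v i)) = lc l (fun i => x (v i)) := by
  ext i
  simp [lc]

/-- one elimination step -/
theorem elim_step (hinj : Function.Injective (algebraMap B A))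
    {K L : Type*} [Field K] [Field L] [Algebra B K] [IsFractionRing B K] [Algebra A L]
    [Algebra K L] [Algebra B L] [IsScalarTower B A L] [IsScalarTower B K L]
    {m : ℕ} (u : Fin (m + 1) → A) (hu : Scal B u)
    (hdep : ¬ Function.Injective (MvPolynomial.aeval u : MvPolynomial (Fin (m + 1)) B →ₐ[B] A)) :
    ∃ (S : Finset (Fin m → Fin (m + 1) → ℤ)) (b : B) (C : ℝ), b ≠ 0 ∧ 0 ≤ C ∧
      (∀ l ∈ S, ∀ j, IsIntegral (Algebra.adjoin K (Set.range fun i => algebraMap A L (lc l u i)))
        (algebraMap A L (u j))) ∧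
      ∀ y : B →+* ℂ, y b ≠ 0 → ∃ l ∈ S, ∀ x : A →+* ℂ, x.comp (algebraMap B A) = y →
        ‖fun i => x (u i)‖ ≤ C * ‖fun i => x (lc l u i)‖ := by
  classical
  -- a relation
  obtain ⟨P, hP, hP0⟩ : ∃ P : MvPolynomial (Fin (m + 1)) B, MvPolynomial.aeval u P = 0 ∧ P ≠ 0 := by
    rw [injective_iff_map_eq_zero] at hdep
    push Not at hdep
    exact hdep
  set D := P.totalDegree with hD
  set Q := MvPolynomial.homogeneousComponent D P with hQ
  have hQ0 : Q ≠ 0 := by
    obtain ⟨d, hd, hdm⟩ := Finset.exists_mem_eq_sup P.support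
      (MvPolynomial.support_nonempty.2 hP0) (fun s => s.sum fun _ e => e)
    have hdeg : d.degree = D := by
      rw [hD, MvPolynomial.totalDegree, hdm]
      rfl
    intro h
    have h1 := congrArg (MvPolynomial.coeff d) h
    rw [hQ, MvPolynomial.coeff_homogeneousComponent, if_pos hdeg, MvPolynomial.coeff_zero] at h1
    exact (MvPolynomial.mem_support_iff.1 hd) h1
  have hDpos : D ≠ 0 := by
    intro h0
    have h1 : P = MvPolynomial.C (MvPolynomial.coeff 0 P) :=
      MvPolynomial.totalDegree_eq_zero_iff_eq_C.1 (by rw [← hD, h0])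
    rw [h1, MvPolynomial.aeval_C] at hP
    have h2 := hinj (by rw [hP, map_zero] :
      algebraMap B A (MvPolynomial.coeff 0 P) = algebraMap B A 0)
    rw [h2, map_zero] at h1
    exact hP0 h1
  obtain ⟨d1, hd1⟩ : ∃ d, MvPolynomial.coeff d Q ≠ 0 := MvPolynomial.ne_zero_iff.1 hQ0
  -- the grid
  obtain ⟨Kg, hKg, hgrid⟩ := exists_grid (Fin (m + 1)) D (c := 1) one_ne_zero
  let pt : (Fin (m + 1) → Fin (D + 1)) → (Fin (m + 1) → ℤ) := fun g j => ((g j : ℕ) : ℤ)
  let QB : (Fin (m + 1) → Fin (D + 1)) → B :=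
    fun g => MvPolynomial.eval (fun j => ((pt g j : ℤ) : B)) Q
  have hQB0 : ∀ g, QB g ≠ 0 → ∃ i0, pt g i0 ≠ 0 := by
    intro g hg
    by_contra h
    push Not at h
    apply hg
    simp only [QB]
    have h2 : (fun j => ((pt g j : ℤ) : B)) = 0 := by ext j; simp [h j]
    rw [h2, MvPolynomial.eval_zero, MvPolynomial.constantCoeff_eq, hQ,
      MvPolynomial.coeff_homogeneousComponent, if_neg]
    simpa using hDpos.symm
  choose! i0 hi0 using hQB0
  have hyQ : ∀ (y : B →+* ℂ) g, y (QB g) =
      MvPolynomial.eval (fun j => ((pt g j : ℤ) : ℂ)) (MvPolynomial.map y Q) := by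
    intro y g
    simp only [QB]
    rw [MvPolynomial.eval_map, ← MvPolynomial.eval₂_id, MvPolynomial.eval₂_comp_left]
    congr 1
    · ext j; simp
  -- radii
  have hrad := fun g : Fin (m + 1) → Fin (D + 1) => elim_bound D (fun j => ((pt g j : ℤ) : ℂ))
    (δ := 1 / (2 * Kg)) (by positivity)
  choose r hr hrb using hrad
  let C : ℝ := ∑ g : Fin (m + 1) → Fin (D + 1), (‖(fun j => ((pt g j : ℤ) : ℂ))‖ / r g + 1)
  have hterm : ∀ g, 0 ≤ ‖(fun j => ((pt g j : ℤ) : ℂ))‖ / r g + 1 := fun g => by
    have := hr g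
    positivity
  refine ⟨(Finset.univ.filter fun g => QB g ≠ 0).image fun g => proj (pt g) (i0 g),
    MvPolynomial.coeff d1 Q, C, hd1, Finset.sum_nonneg fun g _ => hterm g, ?_, ?_⟩
  · -- integrality
    intro l hl j
    obtain ⟨g, hg, rfl⟩ := Finset.mem_image.1 hl
    have hg' : QB g ≠ 0 := (Finset.mem_filter.1 hg).2
    have hBK : Function.Injective (algebraMap B K) := IsFractionRing.injective B K
    have charK : CharZero K := charZero_of_injective_algebraMap hBK
    refine elim_integral (K := K) (fun i => algebraMap A L (u i))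
      (MvPolynomial.map (algebraMap B K) P) ?_ (fun j => ((pt g j : ℤ) : K)) (D := D)
      (Finset.sup_mono (MvPolynomial.support_map_subset _ _)) ?_ (i0 g) ?_ _ ?_ j
    · rw [MvPolynomial.aeval_map_algebraMap]
      have h1 : MvPolynomial.aeval (fun i => algebraMap A L (u i)) P =
          algebraMap A L (MvPolynomial.aeval u P) := MvPolynomial.aeval_algebraMap_apply L u P
      rw [h1, hP, map_zero]
    · rw [← map_homogeneousComponent, ← hQ]
      have h1 : MvPolynomial.eval (fun j => ((pt g j : ℤ) : K))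
          (MvPolynomial.map (algebraMap B K) Q) = algebraMap B K (QB g) := by
        simp only [QB]
        rw [MvPolynomial.eval_map, ← MvPolynomial.eval₂_id, MvPolynomial.eval₂_comp_left]
        congr 1
        · ext j; simp
      rw [h1]
      intro h
      exact hg' (hBK (by rw [h, map_zero]))
    · exact_mod_cast hi0 g hg'
    · intro j
      rw [lc_proj]
      simp
  · -- estimate
    intro y hy
    set f := MvPolynomial.map y P with hf
    have hfQ : MvPolynomial.homogeneousComponent D f = MvPolynomial.map y Q := by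
      rw [hf, hQ, map_homogeneousComponent]
    set q := MvPolynomial.map y Q with hq
    have hq0 : q ≠ 0 := by
      intro h
      apply hy
      have := congrArg (MvPolynomial.coeff d1) h
      rwa [hq, MvPolynomial.coeff_map, MvPolynomial.coeff_zero] at this
    have hqdeg : q.totalDegree ≤ D := by
      rw [← hfQ]
      exact (MvPolynomial.homogeneousComponent_isHomogeneous D f).totalDegree_le
    obtain ⟨d0, hd0, hmax⟩ := Finset.exists_max_image q.support
      (fun d => ‖MvPolynomial.coeff d q‖) (MvPolynomial.support_nonempty.2 hq0)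
    set N := ‖MvPolynomial.coeff d0 q‖ with hN
    have hNpos : 0 < N := norm_pos_iff.2 (MvPolynomial.mem_support_iff.1 hd0)
    have hNle : ∀ d, ‖MvPolynomial.coeff d q‖ ≤ N := by
      intro d
      by_cases hd : d ∈ q.support
      · exact hmax d hd
      · rw [MvPolynomial.notMem_support_iff.1 hd, norm_zero]; exact hNpos.le
    obtain ⟨g, hg⟩ : ∃ g : Fin (m + 1) → Fin (D + 1),
        1 / (2 * Kg) * N ≤ ‖MvPolynomial.eval (fun j => ((pt g j : ℤ) : ℂ)) q‖ := by
      by_contra hcon
      push Not at hcon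
      have h1 := hgrid q hqdeg (1 / (2 * Kg) * N) (by positivity) (fun g => by
        have h2 := (hcon g).le
        have h3 : (fun j => ((pt g j : ℤ) : ℂ)) = fun j => ((g j : ℕ) : ℂ) * 1 := by
          ext j; simp [pt]
        rwa [h3] at h2) d0
      rw [← hN] at h1
      have h4 : Kg * (1 / (2 * Kg) * N) = N / 2 := by field_simp
      linarith
    have hQg : QB g ≠ 0 := by
      intro h
      have h1 := hyQ y g
      rw [h, map_zero, ← hq] at h1
      rw [← h1, norm_zero] at hg
      have : 0 < 1 / (2 * Kg) * N := by positivity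
      linarith
    refine ⟨proj (pt g) (i0 g), Finset.mem_image_of_mem _
      (Finset.mem_filter.2 ⟨Finset.mem_univ _, hQg⟩), fun x hx => ?_⟩
    have hv := vanish hu hP hx D
    rw [← hf] at hv
    have h1 := step_bound (pt g) (i0 g) (hi0 g hQg) (hr g) (f := f) (D := D)
      (fun w hw => hrb g q N hNpos hqdeg hNle hg w (by rw [← hfQ]; exact hw))
      (fun i => x (u i)) hv
    rw [hom_lc]
    refine h1.trans (mul_le_mul_of_nonneg_right ?_ (norm_nonneg _))
    exact Finset.single_le_sum (f := fun g : Fin (m + 1) → Fin (D + 1) =>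
      ‖(fun j => ((pt g j : ℤ) : ℂ))‖ / r g + 1) (fun g _ => hterm g) (Finset.mem_univ g)

end step

end Vale.Agent.P299.H348
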