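import Mathlib
import Vale.Agent.P299.H348.Noether

/-!
# Uniform Noether normalisation, final form
-/

namespace Vale.Agent.P299.H348

open Filter Topology

/-- exchange: `d` elements over which `d` independent elements are algebraic are independent -/
theorem indep_of_algebraic {B A : Type*} [CommRing B] [CommRing A] [IsDomain A] [Algebra B A]
    {d : ℕ} {T T₀ : Fin d → A} (h₀ : AlgebraicIndependent B T₀)
    (halg : ∀ i, IsAlgebraic (Algebra.adjoin B (Set.range T)) (T₀ i)) :
    AlgebraicIndependent B T := by
  classical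
  have : FaithfulSMul B A :=
    (faithfulSMul_iff_algebraMap_injective B A).mpr h₀.algebraMap_injective
  have : IsDomain B := h₀.algebraMap_injective.isDomain (algebraMap B A)
  have : NoZeroDivisors A := inferInstance
  let M := AlgebraicIndependent.matroid B A
  have hI : M.Indep (Set.range T₀) := AlgebraicIndependent.matroid_indep_iff.2 h₀.to_subtype_range
  have hsub : Set.range T₀ ⊆ M.closure (Set.range T) := by
    rw [AlgebraicIndependent.matroid_closure_eq]
    rintro _ ⟨i, rfl⟩
    exact halg i
  have h1 : (Set.range T₀).encard ≤ M.eRk (Set.range T) := by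
    rw [← M.eRk_closure_eq]
    exact hI.encard_le_eRk_of_subset hsub
  have h2 : (Set.range T₀).encard = d := by
    rw [← Set.image_univ, h₀.injective.encard_image, Set.encard_univ]
    simp
  have h3 : (Set.range T).encard ≤ d := by
    rw [← Set.image_univ]
    refine (Set.encard_image_le _ _).trans ?_
    rw [Set.encard_univ]; simp
  obtain ⟨J, hJ⟩ := M.exists_isBasis (Set.range T)
  have h4 : J.encard = M.eRk (Set.range T) := hJ.encard_eq_eRk
  have hfin : (Set.range T).Finite := Set.finite_range T
  have h5 : J = Set.range T := by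
    refine (hfin.subset hJ.subset).eq_of_subset_of_encard_le hJ.subset ?_
    rw [h4]
    exact h3.trans (h2 ▸ h1)
  have h6 : AlgebraicIndepOn B id (Set.range T) := by
    rw [← h5]
    exact AlgebraicIndependent.matroid_indep_iff.1 hJ.indep
  have hTinj : Function.Injective T := by
    have h7 : (d : ℕ∞) ≤ (Set.range T).encard := by
      rw [← h2]
      exact h1.trans (M.eRk_le_encard _)
    have h8 : (Set.range T).ncard = Fintype.card (Fin d) := by
      have h9 := le_antisymm h3 h7
      rw [← hfin.cast_ncard_eq] at h9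
      rw [Fintype.card_fin]
      exact_mod_cast h9
    rw [← Set.image_univ] at h8
    have h10 : (T '' (Set.univ : Set (Fin d))).ncard = (Set.univ : Set (Fin d)).ncard := by
      rw [h8, Set.ncard_univ]; simp
    have := (Set.ncard_image_iff (Set.finite_univ)).1 h10
    exact Set.injOn_univ.1 this
  exact (algebraicIndependent_subtype_range hTinj).1 h6

section chain

variable {B A : Type*} [CommRing B] [IsDomain B] [CharZero B] [CommRing A] [IsDomain A]
  [Algebra B A]

theorem chain (hinj : Function.Injective (algebraMap B A))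
    {K L : Type*} [Field K] [Field L] [Algebra B K] [IsFractionRing B K] [Algebra A L]
    [Algebra K L] [Algebra B L] [IsScalarTower B A L] [IsScalarTower B K L]
    {n : ℕ} (v : Fin n → A) (hv : Scal B v) {d : ℕ}
    (hd : ∀ m, d < m → m ≤ n → ∀ l : Fin m → Fin n → ℤ,
      ¬ Function.Injective (MvPolynomial.aeval (lc l v) : MvPolynomial (Fin m) B →ₐ[B] A)) :
    ∀ (k m : ℕ), m + k = n → d ≤ m →
      ∃ (S : Finset (Fin m → Fin n → ℤ)) (g : B) (C : ℝ), g ≠ 0 ∧ 0 ≤ C ∧
      (∀ l ∈ S, ∀ j, IsIntegral (Algebra.adjoin K (Set.range fun i => algebraMap A L (lc l v i)))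
        (algebraMap A L (v j))) ∧
      ∀ y : B →+* ℂ, y g ≠ 0 → ∃ l ∈ S, ∀ x : A →+* ℂ, x.comp (algebraMap B A) = y →
        ‖fun i => x (v i)‖ ≤ C * ‖fun i => x (lc l v i)‖ := by
  classical
  intro k
  induction k with
  | zero =>
    intro m hm _
    obtain rfl : m = n := by omega
    let l₀ : Fin m → Fin m → ℤ := fun i j => if j = i then 1 else 0
    have hl₀ : lc l₀ v = v := by
      ext i
      simp only [lc, l₀]
      rw [Finset.sum_eq_single i]
      · simp
      · intro b _ hb; simp [hb]
      · intro h; exact absurd (Finset.mem_univ _) h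
    refine ⟨{l₀}, 1, 1, one_ne_zero, zero_le_one, ?_, ?_⟩
    · intro l hl j
      rw [Finset.mem_singleton.1 hl, hl₀]
      let W := Algebra.adjoin K (Set.range fun i => algebraMap A L (v i))
      have : algebraMap A L (v j) = algebraMap W L ⟨algebraMap A L (v j),
        Algebra.subset_adjoin ⟨j, rfl⟩⟩ := rfl
      rw [this]
      exact isIntegral_algebraMap
    · intro y _
      refine ⟨l₀, Finset.mem_singleton_self _, fun x _ => ?_⟩
      rw [hl₀, one_mul]
  | succ k ih =>
    intro m hm hdm
    obtain ⟨S', g', C', hg', hC', hint', hest'⟩ := ih (m + 1) (by omega) (by omega)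
    have hstep := fun l : Fin (m + 1) → Fin n → ℤ =>
      elim_step (K := K) (L := L) hinj (lc l v) (hv.lc l) (hd (m + 1) (by omega) (by omega) l)
    choose S b C hb hC hint hest using hstep
    let comp : (Fin m → Fin (m + 1) → ℤ) → (Fin (m + 1) → Fin n → ℤ) → (Fin m → Fin n → ℤ) :=
      fun p l i j => ∑ a, p i a * l a j
    have hcomp : ∀ p l, lc (comp p l) v = lc p (lc l v) := fun p l => (lc_lc l p v).symm
    refine ⟨S'.biUnion fun l => (S l).image fun p => comp p l, g' * ∏ l ∈ S', b l,
      C' * ∑ l ∈ S', C l, mul_ne_zero hg' (Finset.prod_ne_zero_iff.2 fun l _ => hb l),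
      mul_nonneg hC' (Finset.sum_nonneg fun l _ => hC l), ?_, ?_⟩
    · intro l' hl' j
      obtain ⟨l, hl, hl2⟩ := Finset.mem_biUnion.1 hl'
      obtain ⟨p, hp, rfl⟩ := Finset.mem_image.1 hl2
      rw [hcomp]
      exact isIntegral_adjoin_trans (hint l p hp) (hint' l hl j)
    · intro y hy
      rw [map_mul, map_prod] at hy
      obtain ⟨l, hl, hx⟩ := hest' y (left_ne_zero_of_mul hy)
      have hbl : y (b l) ≠ 0 := Finset.prod_ne_zero_iff.1 (right_ne_zero_of_mul hy) l hl
      obtain ⟨p, hp, hx2⟩ := hest l y hbl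
      refine ⟨comp p l, Finset.mem_biUnion.2 ⟨l, hl, Finset.mem_image_of_mem _ hp⟩,
        fun x hxy => ?_⟩
      rw [hcomp]
      refine (hx x hxy).trans ?_
      rw [mul_assoc]
      refine mul_le_mul_of_nonneg_left ((hx2 x hxy).trans ?_) hC'
      exact mul_le_mul_of_nonneg_right
        (Finset.single_le_sum (f := C) (fun l _ => hC l) hl) (norm_nonneg _)

omit [IsDomain A] in
open Polynomial in
/-- integrality over the polynomial ring over the fraction field, with cleared denominators -/
theorem poly_form {K L : Type*} [Field K] [Field L] [Algebra B K] [IsFractionRing B K]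
    [Algebra A L] [Algebra K L] [Algebra B L] [IsScalarTower B A L] [IsScalarTower B K L]
    (hAL : Function.Injective (algebraMap A L)) {m : ℕ} (T : Fin m → A) (a : A)
    (h : IsIntegral (Algebra.adjoin K (Set.range fun i => algebraMap A L (T i)))
      (algebraMap A L a)) :
    ∃ P : Polynomial (MvPolynomial (Fin m) B), ∃ c : B, c ≠ 0 ∧
      P.leadingCoeff = MvPolynomial.C c ∧
      P.eval₂ (MvPolynomial.aeval T : MvPolynomial (Fin m) B →ₐ[B] A).toRingHom a = 0 := by
  classical
  obtain ⟨q, hq, hqa⟩ := h
  let TL : Fin m → L := fun i => algebraMap A L (T i)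
  have hsurj : ∀ w : Algebra.adjoin K (Set.range TL), ∃ G : MvPolynomial (Fin m) K,
      MvPolynomial.aeval TL G = (w : L) := by
    intro w
    have h1 : (w : L) ∈ (MvPolynomial.aeval (R := K) TL).range := by
      rw [← Algebra.adjoin_range_eq_range_aeval]
      exact w.2
    exact h1
  choose G hG using hsurj
  have hcl := fun k => exists_clear (B := B) (G (q.coeff k))
  choose b hb c₀ hdeg hc₀ using hcl
  set N := q.natDegree with hN
  let c : B := ∏ k ∈ Finset.range N, b k
  have hc : c ≠ 0 := Finset.prod_ne_zero_iff.2 fun k _ => hb k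
  let R : (MvPolynomial (Fin m) B)[X] := ∑ k ∈ Finset.range N,
    C (MvPolynomial.C (∏ j ∈ (Finset.range N).erase k, b j) * c₀ k) * X ^ k
  have hRdeg : R.degree < N := by
    refine (degree_sum_le _ _).trans_lt ((Finset.sup_lt_iff (by simp)).2 fun k hk => ?_)
    exact (degree_C_mul_X_pow_le _ _).trans_lt (by exact_mod_cast Finset.mem_range.1 hk)
  have hCc : (MvPolynomial.C c : MvPolynomial (Fin m) B) ≠ 0 := by
    rw [Ne, MvPolynomial.C_eq_zero]; exact hc
  refine ⟨R + C (MvPolynomial.C c) * X ^ N, c, hc, ?_, ?_⟩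
  · rw [leadingCoeff_add_of_degree_lt, leadingCoeff_C_mul_X_pow]
    rw [degree_C_mul_X_pow N hCc]
    exact hRdeg
  · apply hAL
    rw [map_zero]
    -- evaluate in `L`
    have hL : ∀ g : MvPolynomial (Fin m) B,
        algebraMap A L ((MvPolynomial.aeval T : MvPolynomial (Fin m) B →ₐ[B] A).toRingHom g) =
        MvPolynomial.aeval TL (MvPolynomial.map (algebraMap B K) g) := by
      intro g
      rw [MvPolynomial.aeval_map_algebraMap]
      exact (MvPolynomial.aeval_algebraMap_apply L T g).symm
    have hbc : ∀ k ∈ Finset.range N, (∏ j ∈ (Finset.range N).erase k, b j) * b k = c :=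
      fun k hk => Finset.prod_erase_mul _ _ hk
    have hqsum : eval₂ (algebraMap (Algebra.adjoin K (Set.range TL)) L) (algebraMap A L a) q =
        ∑ k ∈ Finset.range N, (q.coeff k : L) * (algebraMap A L a) ^ k +
          (algebraMap A L a) ^ N := by
      rw [eval₂_eq_sum_range, Finset.sum_range_succ]
      congr 1
      have : q.coeff q.natDegree = 1 := hq
      rw [this, map_one, one_mul]
    have hq0 : ∑ k ∈ Finset.range N, (q.coeff k : L) * (algebraMap A L a) ^ k +
          (algebraMap A L a) ^ N = 0 := by rw [← hqsum]; exact hqa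
    rw [eval₂_add, eval₂_mul, eval₂_C, eval₂_X_pow, eval₂_finsetSum, map_add, map_mul, hL,
      map_pow, map_sum]
    have hterm : ∀ k ∈ Finset.range N, algebraMap A L (eval₂
        (MvPolynomial.aeval T : MvPolynomial (Fin m) B →ₐ[B] A).toRingHom a
          (C (MvPolynomial.C (∏ j ∈ (Finset.range N).erase k, b j) * c₀ k) * X ^ k)) =
        algebraMap K L (algebraMap B K c) * ((q.coeff k : L) * (algebraMap A L a) ^ k) := by
      intro k hk
      rw [eval₂_mul, eval₂_C, eval₂_X_pow, map_mul, hL, map_pow, map_mul, hc₀ k,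
        MvPolynomial.map_C, map_mul, map_mul, MvPolynomial.aeval_C, MvPolynomial.aeval_C, hG,
        ← hbc k hk, map_mul, map_mul]
      ring
    rw [Finset.sum_congr rfl hterm, ← Finset.mul_sum, MvPolynomial.map_C, MvPolynomial.aeval_C,
      ← mul_add, hq0, mul_zero]

omit [IsDomain B] [CharZero B] [IsDomain A] in
theorem adjoin_algebraic_of_poly {m : ℕ} (T : Fin m → A)
    (hinj : Function.Injective (algebraMap B A)) {a : A}
    {P : Polynomial (MvPolynomial (Fin m) B)} {c : B} (hc : c ≠ 0)
    (hP : P.leadingCoeff = MvPolynomial.C c)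
    (hPa : P.eval₂ (MvPolynomial.aeval T : MvPolynomial (Fin m) B →ₐ[B] A).toRingHom a = 0) :
    IsAlgebraic (Algebra.adjoin B (Set.range T)) a := by
  let W := Algebra.adjoin B (Set.range T)
  have hmem : ∀ g : MvPolynomial (Fin m) B, MvPolynomial.aeval T g ∈ W := fun g => by
    simp only [W]
    rw [Algebra.adjoin_range_eq_range_aeval]
    exact ⟨g, rfl⟩
  let f : MvPolynomial (Fin m) B →+* W :=
    { toFun := fun g => ⟨MvPolynomial.aeval T g, hmem g⟩
      map_one' := by ext; simp
      map_mul' := fun _ _ => by ext; simp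
      map_zero' := by ext; simp
      map_add' := fun _ _ => by ext; simp }
  refine ⟨P.map f, ?_, ?_⟩
  · intro h
    have h1 : (P.map f).coeff P.natDegree = 0 := by rw [h, Polynomial.coeff_zero]
    rw [Polynomial.coeff_map] at h1
    have h2 : P.coeff P.natDegree = MvPolynomial.C c := hP
    rw [h2] at h1
    have h3 := congrArg (fun w : W => (w : A)) h1
    have h4 : algebraMap B A c = 0 := by simpa [f] using h3
    exact hc (hinj (by rw [h4, map_zero]))
  · rw [Polynomial.aeval_def, Polynomial.eval₂_map]
    exact hPa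

/-- **Uniform Noether normalisation.** -/
theorem unifNoether (hinj : Function.Injective (algebraMap B A)) {n : ℕ} (v : Fin n → A)
    (hscal : Scal B v) :
    ∃ (d : ℕ) (L : Finset (Fin d → Fin n → ℤ)) (g : B) (C : ℝ), g ≠ 0 ∧ 0 ≤ C ∧
      (∀ l ∈ L,
        Function.Injective (MvPolynomial.aeval (lc l v) : MvPolynomial (Fin d) B →ₐ[B] A) ∧
        ∀ j, ∃ P : Polynomial (MvPolynomial (Fin d) B), ∃ c : B, c ≠ 0 ∧
          P.leadingCoeff = MvPolynomial.C c ∧
          P.eval₂ (MvPolynomial.aeval (lc l v) : MvPolynomial (Fin d) B →ₐ[B] A).toRingHom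
            (v j) = 0) ∧
      ∀ y : B →+* ℂ, y g ≠ 0 → ∃ l ∈ L, ∀ x : A →+* ℂ, x.comp (algebraMap B A) = y →
        ‖fun i => x (v i)‖ ≤ C * ‖fun i => x (lc l v i)‖ := by
  classical
  let K := FractionRing B
  let L := FractionRing A
  have hAL : Function.Injective (algebraMap A L) := IsFractionRing.injective A L
  have hBL : Function.Injective (algebraMap B L) := by
    rw [IsScalarTower.algebraMap_eq B A L]
    exact hAL.comp hinj
  have : FaithfulSMul B L := (faithfulSMul_iff_algebraMap_injective B L).2 hBL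
  let : Algebra K L := FractionRing.liftAlgebra B L
  have : IsScalarTower B K L := FractionRing.isScalarTower_liftAlgebra B L
  -- the dimension
  let Pd : ℕ → Prop := fun d => ∀ m, d < m → m ≤ n → ∀ l : Fin m → Fin n → ℤ,
      ¬ Function.Injective (MvPolynomial.aeval (lc l v) : MvPolynomial (Fin m) B →ₐ[B] A)
  have hex : ∃ d, Pd d := ⟨n, fun m h1 h2 => by omega⟩
  set d := Nat.find hex with hd
  have hdP : Pd d := Nat.find_spec hex
  have hdn : d ≤ n := Nat.find_min' hex fun m h1 h2 => by omega
  obtain ⟨l₀, hl₀⟩ : ∃ l₀ : Fin d → Fin n → ℤ,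
      Function.Injective (MvPolynomial.aeval (lc l₀ v) : MvPolynomial (Fin d) B →ₐ[B] A) := by
    rcases Nat.eq_zero_or_pos d with h0 | hpos
    · rw [h0]
      refine ⟨fun i => Fin.elim0 i, ?_⟩
      have : (AlgebraicIndependent B (lc (fun i : Fin 0 => Fin.elim0 i) v)) :=
        (algebraicIndependent_empty_type_iff).2 hinj
      exact this
    · have hmin := Nat.find_min hex (m := d - 1) (by omega)
      simp only [Pd] at hmin
      push Not at hmin
      obtain ⟨m, hm1, hm2, l, hl⟩ := hmin
      have hmd : m = d := by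
        by_contra hne
        exact hdP m (by omega) hm2 l hl
      subst hmd
      exact ⟨l, hl⟩
  obtain ⟨S, g, C, hg, hC, hint, hest⟩ := chain (K := K) (L := L) hinj v hscal hdP (n - d) d
    (by omega) le_rfl
  refine ⟨d, S, g, C, hg, hC, fun l hl => ?_, hest⟩
  have hpoly := fun j => poly_form (B := B) (K := K) (L := L) hAL (lc l v) (v j) (hint l hl j)
  refine ⟨?_, hpoly⟩
  refine indep_of_algebraic (T₀ := lc l₀ v) hl₀ fun i => ?_
  -- `lc l₀ v i` is a combination of the `v j`, which are algebraic
  have hv : ∀ j, IsAlgebraic (Algebra.adjoin B (Set.range (lc l v))) (v j) := by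
    intro j
    obtain ⟨P, c, hc, hP, hPa⟩ := hpoly j
    exact adjoin_algebraic_of_poly (lc l v) hinj hc hP hPa
  have hint' : ∀ z : ℤ, IsAlgebraic (Algebra.adjoin B (Set.range (lc l v))) (z : A) := by
    intro z
    have : (z : A) = algebraMap (Algebra.adjoin B (Set.range (lc l v))) A (z : _) := by simp
    rw [this]
    exact isAlgebraic_algebraMap _
  simp only [lc]
  exact Finset.sum_induction _ (IsAlgebraic (Algebra.adjoin B (Set.range (lc l v))))
    (fun _ _ h1 h2 => h1.add h2) isAlgebraic_zero fun j _ => (hint' _).mul (hv j)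

end chain

end Vale.Agent.P299.H348
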